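import Vale.Agent.P146.Defs

/-! Elementary estimates for the limit of the path sum. -/

namespace Vale.Agent.P367L

open Finset Complex

theorem norm_exp_one (z : ℂ) : ‖exp z - 1‖ ≤ ‖z‖ * Real.exp ‖z‖ := by
  simpa using norm_exp_sub_sum_le_norm_mul_exp z 1

theorem norm_exp_two (z : ℂ) : ‖exp z - (1 + z)‖ ≤ ‖z‖ ^ 2 * Real.exp ‖z‖ := by
  simpa [sum_range_succ] using norm_exp_sub_sum_le_norm_mul_exp z 2

theorem norm_pow_sub {u v : ℂ} {R : ℝ} (hR : 1 ≤ R) (hu : ‖u‖ ≤ R) (hv : ‖v‖ ≤ R) (m : ℕ) :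
    ‖u ^ m - v ^ m‖ ≤ m * R ^ m * ‖u - v‖ := by
  induction m with
  | zero => simp
  | succ m ih =>
    have e : u ^ (m + 1) - v ^ (m + 1) = u * (u ^ m - v ^ m) + v ^ m * (u - v) := by ring
    have h1 : ‖v‖ ^ m ≤ R ^ (m + 1) :=
      (pow_le_pow_left₀ (norm_nonneg _) hv m).trans (pow_le_pow_right₀ hR m.le_succ)
    rw [e]
    refine (norm_add_le _ _).trans ?_
    rw [norm_mul, norm_mul, norm_pow]
    have h2 := mul_le_mul hu ih (norm_nonneg _) (by linarith)
    have h3 := mul_le_mul_of_nonneg_right h1 (norm_nonneg (u - v))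
    push_cast
    calc _ ≤ _ := add_le_add h2 h3
      _ = _ := by ring

theorem exists_base {E : ℝ} (M : ℝ) (hE : 0 ≤ E) :
    ∃ D : ℝ, 0 ≤ D ∧ ∀ k : ℕ, E * k ^ 2 * Real.exp (M * k) ≤ D ^ k := by
  refine ⟨(1 + E) * 2 ^ 2 * Real.exp M, by positivity, fun k => ?_⟩
  rcases k.eq_zero_or_pos with rfl | hk
  · simp
  have h1 : (k : ℝ) ≤ 2 ^ k := by exact_mod_cast k.lt_two_pow_self.le
  have h2 : E ≤ (1 + E) ^ k := by
    calc E ≤ (1 + E) ^ 1 := by linarith
      _ ≤ _ := pow_le_pow_right₀ (by linarith) hk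
  rw [mul_pow, mul_pow, ← Real.exp_nat_mul, mul_comm (k : ℝ), ← pow_mul, mul_comm 2 k, pow_mul]
  gcongr

theorem anal0 {z τ ρ : ℂ} {m k n : ℕ} {a : ℝ} (ha : 0 ≤ a) (hn : 0 < n) (hm : m ≤ n) (hk : k ≤ n)
    (hz : ‖z‖ ≤ a * k / n) (hτ : ‖τ‖ ≤ a * k) (hρ : ‖ρ‖ ≤ a * k)
    (hs : ‖m * z + ρ + τ‖ ≤ a * k ^ 2 / n) :
    ‖exp ρ * (1 + z) ^ m - exp (-τ)‖ ≤ (a ^ 2 + a) * k ^ 2 * Real.exp (3 * a * k) / n := by
  have n0 : (0 : ℝ) < n := by exact_mod_cast hn
  have n1 : (1 : ℝ) ≤ n := by exact_mod_cast hn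
  have hm' : (m : ℝ) ≤ n := by exact_mod_cast hm
  have hk' : (k : ℝ) ≤ n := by exact_mod_cast hk
  have e : exp ρ * (1 + z) ^ m - exp (-τ) =
      exp ρ * ((1 + z) ^ m - exp z ^ m) + exp (-τ) * (exp (m * z + ρ + τ) - 1) := by
    rw [← exp_nat_mul, mul_sub (exp (-τ)), ← exp_add, mul_sub, ← exp_add]
    ring_nf
  have h1 : ‖1 + z‖ ≤ Real.exp ‖z‖ :=
    (norm_add_le _ _).trans (by simpa [add_comm] using Real.add_one_le_exp ‖z‖)
  have h2 := norm_pow_sub (Real.one_le_exp (norm_nonneg z)) h1 (norm_exp_le_exp_norm z) m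
  have h3 : ‖z‖ ≤ a * k := hz.trans (div_le_self (by positivity) n1)
  have h4 : m * ‖z‖ ≤ a * k := by
    calc m * ‖z‖ ≤ n * (a * k / n) := by gcongr
      _ = _ := by field_simp
  have h5 : a * k ^ 2 / n ≤ a * k := by
    rw [div_le_iff₀ n0, sq, ← mul_assoc]
    gcongr
  have b1 : ‖exp ρ * ((1 + z) ^ m - exp z ^ m)‖ ≤ a ^ 2 * k ^ 2 * Real.exp (3 * a * k) / n := by
    rw [norm_mul]
    calc _ ≤ Real.exp (a * k) * (m * Real.exp ‖z‖ ^ m * (‖z‖ ^ 2 * Real.exp ‖z‖)) := by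
          refine mul_le_mul ((norm_exp_le_exp_norm _).trans (by gcongr)) (h2.trans ?_)
            (norm_nonneg _) (by positivity)
          rw [norm_sub_rev]
          gcongr
          exact norm_exp_two z
      _ = Real.exp (a * k) * Real.exp (m * ‖z‖) * Real.exp ‖z‖ * (m * ‖z‖) * ‖z‖ := by
          rw [Real.exp_nat_mul]
          ring
      _ ≤ Real.exp (a * k) * Real.exp (a * k) * Real.exp (a * k) * (a * k) * (a * k / n) := by
          gcongr
      _ = _ := by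
          rw [← Real.exp_add, ← Real.exp_add]
          ring_nf
  have b2 : ‖exp (-τ) * (exp (m * z + ρ + τ) - 1)‖ ≤ a * k ^ 2 * Real.exp (3 * a * k) / n := by
    rw [norm_mul]
    calc _ ≤ Real.exp (a * k) * (a * k ^ 2 / n * Real.exp (a * k)) := by
          refine mul_le_mul ((norm_exp_le_exp_norm _).trans ?_) ((norm_exp_one _).trans ?_)
            (norm_nonneg _) (by positivity)
          · rw [norm_neg]
            gcongr
          · gcongr
            exact hs.trans h5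
      _ = a * k ^ 2 * Real.exp (2 * a * k) / n := by
          rw [mul_assoc 2, two_mul, Real.exp_add]
          ring
      _ ≤ _ := by
          gcongr
          norm_num
  rw [e]
  calc _ ≤ _ := (norm_add_le _ _).trans (add_le_add b1 b2)
    _ = _ := by ring

/-- the one site factor converges to an exponential -/
theorem anal {P : Type} [Fintype P] (ν : P → ℂ) (hν : ∑ b, ν b = 1) {c : ℝ} (hc : 0 ≤ c) :
    ∃ D : ℝ, 0 ≤ D ∧ ∀ (n k : ℕ) (s : P → ℝ) (r : ℝ), 0 < n → k ≤ n → (∀ b, |s b| ≤ c * k) →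
      |r| ≤ c * k ^ 2 → ‖exp (-(r / n : ℝ)) * (∑ b, ν b * exp (-(s b / n : ℝ))) ^ (n - k) -
        exp (-∑ b, ν b * s b)‖ ≤ D ^ k / n := by
  obtain ⟨A, hA⟩ : ∃ A, A = ∑ b, ‖ν b‖ := ⟨_, rfl⟩
  have A0 : 0 ≤ A := hA ▸ sum_nonneg fun _ _ => norm_nonneg _
  obtain ⟨a, ha⟩ : ∃ a, a = A * c ^ 2 * Real.exp c + A * c * Real.exp c + A * c + c := ⟨_, rfl⟩
  have p1 : 0 ≤ A * c ^ 2 * Real.exp c := by positivity
  have p2 : 0 ≤ A * c * Real.exp c := by positivity
  have p3 : 0 ≤ A * c := by positivity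
  have a0 : 0 ≤ a := by linarith
  obtain ⟨D, D0, hD⟩ := exists_base (E := a ^ 2 + a) (3 * a) (by positivity)
  refine ⟨D, D0, fun n k s r hn hk hs hr => ?_⟩
  have n0 : (0 : ℝ) < n := by exact_mod_cast hn
  have hk' : (k : ℝ) ≤ n := by exact_mod_cast hk
  have k0 : (0 : ℝ) ≤ k := k.cast_nonneg
  have sb : ∀ (t : P → ℂ) (B : ℝ), (∀ b, ‖t b‖ ≤ B) → ‖∑ b, ν b * t b‖ ≤ A * B := fun t B h => by
    rw [hA, sum_mul]
    exact norm_sum_le_of_le _ fun b _ => by
      rw [norm_mul]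
      exact mul_le_mul_of_nonneg_left (h b) (norm_nonneg _)
  have x1 : ∀ b, ‖-((s b / n : ℝ) : ℂ)‖ ≤ c * k / n := fun b => by
    rw [norm_neg, norm_real, Real.norm_eq_abs, abs_div, abs_of_pos n0]
    gcongr
    exact hs b
  have x2 : c * k / n ≤ c := by
    rw [div_le_iff₀ n0]
    gcongr
  have e : ∑ b, ν b * exp (-(s b / n : ℝ)) = 1 + ∑ b, ν b * (exp (-(s b / n : ℝ)) - 1) := by
    simp only [mul_sub, sum_sub_distrib, mul_one, hν]
    ring
  have hτ := sb (fun b => s b) (c * k) fun b => by simpa using hs b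
  have hρ : ‖-((r / n : ℝ) : ℂ)‖ ≤ c * k ^ 2 / n := by
    rw [norm_neg, norm_real, Real.norm_eq_abs, abs_div, abs_of_pos n0]
    gcongr
  have h2 := sb (fun b => exp (-(s b / n : ℝ)) - (1 + -(s b / n : ℝ)))
    ((c * k / n) ^ 2 * Real.exp c) fun b => (norm_exp_two _).trans (by
      gcongr
      exacts [x1 b, (x1 b).trans x2])
  rw [e]
  refine (anal0 a0 hn (Nat.sub_le n k) hk ?_ ?_ ?_ ?_).trans (by gcongr; exact hD k)
  · refine (sb _ (c * k / n * Real.exp c) fun b => (norm_exp_one _).trans ?_).trans ?_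
    · gcongr
      exacts [x1 b, (x1 b).trans x2]
    · rw [show A * (c * k / n * Real.exp c) = A * c * Real.exp c * k / n by ring]
      gcongr
      linarith
  · exact hτ.trans (by nlinarith)
  · refine hρ.trans ?_
    rw [div_le_iff₀ n0, sq, ← mul_assoc]
    gcongr
    linarith
  · have e2 : ((n - k : ℕ) : ℂ) * ∑ b, ν b * (exp (-(s b / n : ℝ)) - 1) + -((r / n : ℝ) : ℂ) +
        ∑ b, ν b * s b = ((n - k : ℝ) : ℂ) * ∑ b, ν b * (exp (-(s b / n : ℝ)) -
          (1 + -(s b / n : ℝ))) + -((r / n : ℝ) : ℂ) + (k / n : ℝ) * ∑ b, ν b * s b := by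
      have : (n : ℂ) ≠ 0 := by exact_mod_cast hn.ne'
      rw [Nat.cast_sub hk, add_right_comm, add_right_comm _ _ (_ * _)]
      simp only [mul_sum, ← sum_add_distrib]
      refine congrArg (· + _) (sum_congr rfl fun b _ => ?_)
      push_cast
      field_simp
      ring
    rw [e2]
    refine (norm_add₃_le).trans ?_
    rw [norm_mul, norm_mul, norm_real, norm_real, Real.norm_of_nonneg (by linarith),
      Real.norm_of_nonneg (by positivity)]
    calc _ ≤ n * (A * ((c * k / n) ^ 2 * Real.exp c)) + c * k ^ 2 / n + k / n * (A * (c * k)) := by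
          gcongr
          linarith
      _ = (A * c ^ 2 * Real.exp c + A * c + c) * k ^ 2 / n := by
          field_simp
          ring
      _ ≤ _ := by
          gcongr
          linarith

end Vale.Agent.P367L
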