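import Vale.Agent.P367L.Exp

namespace Vale.Agent.P367L

open Finset Complex MeasureTheory Vale.Agent.P146 Vale.Agent.P367
open scoped InnerProductSpace ComplexConjugate

variable {H K Q : Type} [NormedAddCommGroup H] [InnerProductSpace ℂ H]
  [SeminormedAddCommGroup K] [InnerProductSpace ℂ K] [Fintype Q] {M : P367S.Mdl H K}

theorem brid_zero (M : P367S.Mdl H K) : Brid M (LinearIsometryEquiv.refl ℂ K) (fun _ => 0) Br.zero
    (fun _ => 1) (fun _ => ((1 / √2 : ℝ) : ℂ)) fun _ => 0 := by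
  refine ⟨?_, fun q => ?_, fun a => ?_, fun x => ?_⟩
  · simp [P367S.Mdl.vac, Br.zero]
  · simp [Br.zero]
  · simp [Br.zero]
  · simp

/-- the branch vectors -/
noncomputable def bridV (M : P367S.Mdl H K) (B : Br Q) (m : Q → ℂ) (ζ : Q → K) (q : Q) : K :=
  m q • M.co (B.e q) (-M.io (ζ q))

/-- the pair weights -/
noncomputable def bridN (B : Br Q) (h : Q × Q → ℂ) (a : Q × Q) : ℂ := (B.hist h).f a * h a

theorem brid_sq (b : Bool) : (spin b : ℂ) * spin b = 1 := by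
  cases b <;> simp [spin]

omit [Fintype Q] in
theorem brid_sw (B : Br Q) (h : Q × Q → ℂ) (b : Q × Q) :
    bridN B h b * spin (B.e b.2) = bridN B h b * spin (B.e b.1) := by
  by_cases e : B.e b.1 = B.e b.2
  · rw [e]
  · simp [bridN, Br.hist, e]

theorem brid_vac (M : P367S.Mdl H K) : ⟪M.vac, M.vac⟫_ℂ = 1 := by
  have h2 : ((√2 : ℝ) : ℂ) * (√2 : ℝ) = 2 := by
    rw [← ofReal_mul, Real.mul_self_sqrt zero_le_two]
    simp
  have h3 : ((√2 : ℝ) : ℂ) ≠ 0 := by simp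
  rw [P367S.Mdl.vac, inner_smul_left, inner_smul_right, inner_add_left, inner_add_right,
    inner_add_right, M.inner_co, M.inner_co, M.inner_co, M.inner_co, conj_ofReal]
  simp only [inner_zero_left, norm_zero, if_true, Bool.true_eq_false, Bool.false_eq_true, if_false,
    ofReal_inv]
  field_simp
  rw [sq ((√2 : ℝ) : ℂ), h2]
  norm_num

section
variable {U : K ≃ₗᵢ[ℂ] K} {S : K → K} {B : Br Q} {h : Q × Q → ℂ} {m : Q → ℂ} {ζ : Q → K}

theorem brid_nu (hB : Brid M U S B h m ζ) (q r : Q) :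
    ⟪bridV M B m ζ r, bridV M B m ζ q⟫_ℂ = bridN B h (q, r) := by
  have := hB.amp (q, r)
  rw [bridV, bridV, inner_smul_left, inner_smul_right, M.inner_co, bridN, Br.hist]
  by_cases e : B.e q = B.e r
  · simp only [if_pos e, if_pos e.symm]
    rw [← this, mul_assoc]
  · simp only [if_neg e, if_neg (Ne.symm e), mul_zero, zero_mul]

theorem brid_inn (hB : Brid M U S B h m ζ) (x y : Q → ℝ) :
    ⟪∑ q, (x q : ℂ) • bridV M B m ζ q, ∑ q, (y q : ℂ) • bridV M B m ζ q⟫_ℂ =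
      ∑ b : Q × Q, bridN B h b * (x b.2 * y b.1) := by
  rw [inner_sum, Fintype.sum_prod_type]
  refine sum_congr rfl fun q _ => ?_
  rw [sum_inner]
  refine sum_congr rfl fun r _ => ?_
  rw [inner_smul_left, inner_smul_right, brid_nu hB, conj_ofReal]
  ring

theorem brid_z (hB : Brid M U S B h m ζ) :
    U (M.zed U) = ∑ q, (spin (B.e q) : ℂ) • bridV M B m ζ q := by
  rw [P367S.Mdl.zed, U.apply_symm_apply, hB.vac, map_sum]
  refine sum_congr rfl fun q _ => ?_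
  rw [map_smul, M.mat_co, bridV, smul_comm]
  congr 1
  cases B.e q <;> simp [P367S.Zm, P367S.sg, spin]

theorem brid_fld (hB : Brid M U S B h m ζ) (q : Q) :
    U (ζ q) = ∑ r, (B.Y q r : ℂ) • bridV M B m ζ r := by
  rw [hB.fld]
  refine sum_congr rfl fun r _ => ?_
  rw [bridV, smul_smul, mul_comm]

theorem brid_one (hB : Brid M U S B h m ζ) : ∑ b, bridN B h b = 1 := by
  have h1 := brid_inn hB (fun _ => 1) fun _ => 1
  simp only [ofReal_one, one_smul, mul_one] at h1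
  rw [← h1, ← brid_vac M, ← U.inner_map_map M.vac, hB.vac]
  rfl

theorem brid_zz (hB : Brid M U S B h m ζ) : ⟪M.zed U, M.zed U⟫_ℂ = 1 := by
  rw [← U.inner_map_map, brid_z hB, brid_inn hB (fun q => spin (B.e q)) fun q => spin (B.e q),
    ← brid_one hB]
  refine sum_congr rfl fun b _ => ?_
  rw [← mul_assoc, brid_sw, mul_assoc, brid_sq, mul_one]

theorem brid_p1 (hB : Brid M U S B h m ζ) (q : Q) :
    ∑ b, bridN B h b * spin (B.e b.1) * B.Y q b.1 = ⟪M.zed U, ζ q⟫_ℂ := by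
  rw [← U.inner_map_map, brid_z hB, brid_fld hB, brid_inn hB (fun q => spin (B.e q)) (B.Y q)]
  refine sum_congr rfl fun b _ => ?_
  rw [← mul_assoc, brid_sw]

theorem brid_p2 (hB : Brid M U S B h m ζ) (q : Q) :
    ∑ b, bridN B h b * spin (B.e b.1) * B.Y q b.2 = ⟪ζ q, M.zed U⟫_ℂ := by
  rw [← U.inner_map_map, brid_z hB, brid_fld hB, brid_inn hB (B.Y q) fun q => spin (B.e q)]
  refine sum_congr rfl fun b _ => ?_
  ring

theorem brid_phi (hB : Brid M U S B h m ζ) (γ : ℝ) (a : Q × Q) :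
    ∑ b, bridN B h b * ((B.hist h).φ γ a b : ℝ) =
      γ * (spin (B.e a.1) - spin (B.e a.2)) * (⟪M.zed U, ζ a.1⟫_ℂ - ⟪ζ a.2, M.zed U⟫_ℂ) +
        γ ^ 2 * (1 - spin (B.e a.1) * spin (B.e a.2)) := by
  have e1 : ∀ c : ℂ, c = ∑ b, c * bridN B h b := fun c => by rw [← mul_sum, brid_one hB, mul_one]
  rw [← brid_p1 hB, ← brid_p2 hB, e1 ((γ : ℂ) ^ 2 * _), ← sum_sub_distrib, mul_sum,
    ← sum_add_distrib]
  refine sum_congr rfl fun b _ => ?_
  by_cases e : B.e b.1 = B.e b.2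
  · simp only [Hist.φ, Br.hist, yy, ← e]
    push_cast
    have h1 := brid_sq (B.e a.1)
    have h2 := brid_sq (B.e a.2)
    have h3 := brid_sq (B.e b.1)
    linear_combination bridN B h b * γ ^ 2 / 2 * (h1 + h2) + bridN B h b * γ ^ 2 / 2 *
      ((spin (B.e a.1) : ℂ) - spin (B.e a.2)) ^ 2 * h3
  · simp [bridN, Br.hist, e]

omit [Fintype Q] in
theorem brid_gate (M : P367S.Mdl H K) (B : Br Q) (m : Q → ℂ) (ζ : Q → K) (z : K) (γ β : ℝ)
    (q : Q) : M.bx β (M.cw ((γ : ℂ) • M.io z) (bridV M B m ζ q)) =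
      ∑ t, (RX β t (B.e q) * (m q * exp (I * (spin (B.e q) *
        (⟪(γ : ℂ) • M.io z, -M.io (ζ q)⟫_ℂ).im : ℝ)))) •
          M.co t (-M.io (ζ q + ((spin (B.e q) : ℂ) * γ) • z)) := by
  have e : -M.io (ζ q) - (P367S.sg (B.e q) : ℂ) • (γ : ℂ) • M.io z =
      -M.io (ζ q + ((spin (B.e q) : ℂ) * γ) • z) := by
    rw [map_add, map_smul, smul_smul, neg_add, sub_eq_add_neg]
    rfl
  rw [bridV, map_smul, M.cw_co, e, smul_smul, map_smul, M.bx_eq, M.mat_co, bM_eq, smul_sum]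
  refine sum_congr rfl fun t _ => ?_
  rw [smul_smul, mul_comm]
  rfl

theorem brid_exp {z x y : K} (hz : ⟪z, z⟫_ℂ = 1) (γ : ℝ) (a b : Bool) :
    conj (I * (spin b * (⟪(γ : ℂ) • M.io z, -M.io y⟫_ℂ).im : ℝ)) +
      I * (spin a * (⟪(γ : ℂ) • M.io z, -M.io x⟫_ℂ).im : ℝ) +
      (⟪-M.io (y + ((spin b : ℂ) * γ) • z), -M.io (x + ((spin a : ℂ) * γ) • z)⟫_ℂ -
        (‖-M.io (y + ((spin b : ℂ) * γ) • z)‖ ^ 2 / 2 : ℝ) -
        (‖-M.io (x + ((spin a : ℂ) * γ) • z)‖ ^ 2 / 2 : ℝ)) =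
    (⟪-M.io y, -M.io x⟫_ℂ - (‖-M.io y‖ ^ 2 / 2 : ℝ) - (‖-M.io x‖ ^ 2 / 2 : ℝ)) +
      -(γ * (spin a - spin b) * (⟪z, x⟫_ℂ - ⟪y, z⟫_ℂ) + γ ^ 2 * (1 - spin a * spin b)) := by
  have hn : ∀ w : K, ((‖-M.io w‖ ^ 2 / 2 : ℝ) : ℂ) = ⟪w, w⟫_ℂ / 2 := fun w => by
    rw [norm_neg, M.io.norm_map, inner_self_eq_norm_sq_to_K]
    push_cast
    rfl
  have hi : ∀ (w : K) (c : ℝ), I * (c * (⟪(γ : ℂ) • M.io z, -M.io w⟫_ℂ).im : ℝ) =
      -(c * γ * (⟪z, w⟫_ℂ - ⟪w, z⟫_ℂ) / 2) := fun w c => by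
    rw [inner_smul_left, inner_neg_right, M.io.inner_map_map, conj_ofReal, im_ofReal_mul, neg_im,
      ← inner_conj_symm w z, sub_conj]
    push_cast
    ring
  have h1 := brid_sq a
  have h2 := brid_sq b
  rw [hi, hi, hn, hn, hn, hn, inner_neg_neg, inner_neg_neg, M.io.inner_map_map, M.io.inner_map_map]
  simp only [inner_add_left, inner_add_right, inner_smul_left, inner_smul_right, hz, map_neg,
    map_div₀, map_mul, map_sub, conj_ofReal, inner_conj_symm, map_ofNat]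
  linear_combination -(γ : ℂ) ^ 2 / 2 * (h1 + h2)

end

/-- Put `z = M.zed U`, `s q = spin (B.e q)` (`P367S.sg = spin` by `rfl`), `c q = M.co (B.e q) (-io (ζ q))`,
`f = γ • io z`, `ν a = (B.hist h).f a * h a`.  Take `ζ' (t, q) = ζ q + (s q * γ) • z` and
`m' (t, q) = RX β t (B.e q) * (m q * exp (I * (s q * ⟪f, -io (ζ q)⟫.im)))`.  Useful facts:
`U z = ∑ q, (m q * s q) • c q` (`mat_co`, `Zm` is diagonal); `ν a = ⟪m a.2 • c a.2, m a.1 • c a.1⟫`
(`inner_co`, `amp`); `∑ ν = ⟪U vac, U vac⟫ = 1`; `⟪z, z⟫ = ⟪U z, U z⟫ = 1`;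
`∑ b, ν b * s b.1 * Y q b.1 = ⟪U z, U (ζ q)⟫ = ⟪z, ζ q⟫`, `∑ b, ν b * s b.1 * Y q b.2 = ⟪ζ q, z⟫`;
hence `∑ b, ν b * φ γ a b = γ (s a.1 - s a.2) (⟪z, ζ a.1⟫ - ⟪ζ a.2, z⟫) + γ ^ 2 (s a.1 - s a.2) ^ 2 / 2`
(`ν b = 0` unless `B.e b.1 = B.e b.2`).  `M.bx β (M.cw f (m q • c q)) = ∑ t, m' (t, q) • c' (t, q)`
gives `vac`, `fld` and, since `bx` and `cw` are isometries, `sum`. -/
theorem Brid.step {U : K ≃ₗᵢ[ℂ] K} {S : K → K} {B : Br Q} {h : Q × Q → ℂ} {m : Q → ℂ} {ζ : Q → K}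
    (hB : Brid M U S B h m ζ) (γ β : ℝ) : ∃ m' ζ',
    Brid M (lay M U γ β) (fun x => S x + (γ * ⟪x, M.zed U⟫_ℂ) • M.zed U) (B.step γ (RX β))
      (B.hstep h γ) m' ζ' := by
  have hl : ∀ x, lay M U γ β x = M.bx β (M.cw ((γ : ℂ) • M.io (M.zed U)) (U x)) := fun _ => rfl
  have hg := brid_gate M B m ζ (M.zed U) γ β
  refine ⟨fun q => RX β q.1 (B.e q.2) * (m q.2 * exp (I * (spin (B.e q.2) *
      (⟪(γ : ℂ) • M.io (M.zed U), -M.io (ζ q.2)⟫_ℂ).im : ℝ))),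
    fun q => ζ q.2 + ((spin (B.e q.2) : ℂ) * γ) • M.zed U, ?_, fun q => ?_, fun a => ?_,
    fun x => ?_⟩
  · rw [hl, hB.vac, map_sum, map_sum, Fintype.sum_prod_type_right]
    exact sum_congr rfl fun q _ => hg q
  · rw [hl, map_add U, map_smul U, brid_fld hB, brid_z hB, smul_sum, ← sum_add_distrib, map_sum,
      map_sum, Fintype.sum_prod_type_right]
    refine sum_congr rfl fun r _ => ?_
    rw [smul_smul, ← add_smul, map_smul, map_smul, hg, smul_sum]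
    refine sum_congr rfl fun t _ => ?_
    rw [smul_smul]
    congr 1
    simp only [Br.step]
    push_cast
    ring
  · have h1 := hB.amp (a.1.2, a.2.2)
    have h2 := brid_phi hB γ (a.1.2, a.2.2)
    have h3 := congrArg exp (brid_exp (M := M) (x := ζ a.1.2) (y := ζ a.2.2) (brid_zz hB) γ
      (B.e a.1.2) (B.e a.2.2))
    rw [exp_add, exp_add, exp_add, exp_conj] at h3
    have h4 : B.hstep h γ a = h (a.1.2, a.2.2) *
        exp (-∑ b, bridN B h b * ((B.hist h).φ γ (a.1.2, a.2.2) b : ℝ)) := rfl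
    rw [h4, h2]
    simp only [Br.step, map_mul] at h1 ⊢
    linear_combination (RX β a.1.1 (B.e a.1.2) * conj (RX β a.2.1 (B.e a.2.2))) *
      (conj (m a.2.2) * m a.1.2 * h3 + exp (-(γ * (spin (B.e a.1.2) - spin (B.e a.2.2)) *
        (⟪M.zed U, ζ a.1.2⟫_ℂ - ⟪ζ a.2.2, M.zed U⟫_ℂ) +
          γ ^ 2 * (1 - spin (B.e a.1.2) * spin (B.e a.2.2)))) * h1)
  · rw [hB.sum, ← U.inner_map_map x, Fintype.sum_prod_type_right]
    conv_lhs => rw [brid_z hB, inner_sum, mul_sum, sum_smul, ← sum_add_distrib]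
    refine sum_congr rfl fun q _ => ?_
    have e := (sum_smul (s := univ) (x := ζ q + ((spin (B.e q) : ℂ) * γ) • M.zed U)
      (f := fun t => ⟪lay M U γ β x, (RX β t (B.e q) * (m q * exp (I * (spin (B.e q) *
        (⟪(γ : ℂ) • M.io (M.zed U), -M.io (ζ q)⟫_ℂ).im : ℝ)))) •
          M.co t (-M.io (ζ q + ((spin (B.e q) : ℂ) * γ) • M.zed U))⟫_ℂ)).symm
    refine Eq.trans ?_ e.symm
    rw [← inner_sum, ← hg, hl, LinearIsometryEquiv.inner_map_map,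
      LinearIsometryEquiv.inner_map_map, smul_add, smul_smul, inner_smul_right _ (bridV M B m ζ q)]
    congr 2
    ring

/-- In the same terms `T = ⟪z, S z⟫ = ∑ a, ν a * s a.1 * ⟪z, ζ a.1⟫` and
`conj T = ∑ a, ν a * s a.1 * ⟪ζ a.2, z⟫`; the double sum is `-I * (T - conj T)`. -/
theorem Brid.val {U : K ≃ₗᵢ[ℂ] K} {S : K → K} {B : Br Q} {h : Q × Q → ℂ} {m : Q → ℂ} {ζ : Q → K}
    (hB : Brid M U S B h m ζ) :
    ((∑ a, ∑ b, (B.hist h).f a * h a * ((B.hist h).f b * h b) * (B.hist h).κ a b) / 2).re =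
      (⟪M.zed U, S (M.zed U)⟫_ℂ).im := by
  have hS : S (M.zed U) = ∑ q, ⟪U (M.zed U), bridV M B m ζ q⟫_ℂ • ζ q := hB.sum _
  have h1 : ⟪M.zed U, S (M.zed U)⟫_ℂ =
      ∑ a : Q × Q, bridN B h a * spin (B.e a.1) * ⟪M.zed U, ζ a.1⟫_ℂ := by
    rw [hS, inner_sum, Fintype.sum_prod_type]
    refine sum_congr rfl fun q _ => ?_
    rw [inner_smul_right, brid_z hB, sum_inner, sum_mul]
    refine sum_congr rfl fun r _ => ?_
    rw [inner_smul_left, brid_nu hB, conj_ofReal, ← brid_sw B h (q, r), mul_comm (bridN B h _)]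
  have h2 : conj ⟪M.zed U, S (M.zed U)⟫_ℂ =
      ∑ a : Q × Q, bridN B h a * spin (B.e a.1) * ⟪ζ a.2, M.zed U⟫_ℂ := by
    rw [inner_conj_symm, hS, sum_inner, Fintype.sum_prod_type_right]
    refine sum_congr rfl fun q _ => ?_
    rw [inner_smul_left, inner_conj_symm, brid_z hB, inner_sum, sum_mul]
    refine sum_congr rfl fun r _ => ?_
    rw [inner_smul_right, brid_nu hB, mul_comm (bridN B h _)]
  have h3 : ∑ a, ∑ b, (B.hist h).f a * h a * ((B.hist h).f b * h b) * (B.hist h).κ a b =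
      -I * (⟪M.zed U, S (M.zed U)⟫_ℂ - conj ⟪M.zed U, S (M.zed U)⟫_ℂ) := by
    rw [h2, h1, ← sum_sub_distrib, mul_sum]
    refine sum_congr rfl fun a _ => ?_
    rw [← brid_p1 hB, ← brid_p2 hB, ← mul_sub, ← sum_sub_distrib, mul_sum, mul_sum]
    refine sum_congr rfl fun b _ => ?_
    simp only [Hist.κ, bridN, Br.hist]
    push_cast
    ring
  rw [h3, sub_conj]
  simp

end Vale.Agent.P367L
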