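import Vale.Agent.P367L.Defs

/-! The cost gate. -/

namespace Vale.Agent.P367L

open Finset Complex Vale.Agent.P146

variable {P : Type} [Fintype P] {n : ℕ}

theorem sum_pair (F : Fin n → Fin n → ℝ) (hF : ∀ i j, F i j = F j i) :
    ∑ p : Pair n, F p.1.1 p.1.2 = (∑ i, ∑ j, F i j - ∑ i, F i i) / 2 := by
  have h1 : ∑ p : Pair n, F p.1.1 p.1.2 = ∑ i, ∑ j, if i < j then F i j else 0 := by
    rw [← Fintype.sum_prod_type', ← sum_filter]
    exact (sum_subtype _ (by simp) fun x : Fin n × Fin n => F x.1 x.2).symm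
  have h2 : ∑ i, ∑ j, (if i < j then F i j else 0) = ∑ i, ∑ j, if j < i then F i j else 0 := by
    rw [sum_comm]
    simp only [hF]
  have h3 : ∀ i j, F i j = (if i < j then F i j else 0) + (if j < i then F i j else 0) +
      if i = j then F i j else 0 := fun i j => by
    rcases lt_trichotomy i j with h | h | h
    · simp [h, h.not_gt, h.ne]
    · simp [h]
    · simp [h, h.not_gt, h.ne']
  rw [sum_congr rfl fun i _ => sum_congr rfl fun j _ => h3 i j]
  simp only [sum_add_distrib, sum_ite_eq, mem_univ, if_true]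
  rw [← h2, ← h1]
  ring

theorem sum_pair_split (K : Finset (Fin n)) (F : Fin n → Fin n → ℝ) (hF : ∀ i j, F i j = F j i)
    (h0 : ∀ i ∈ Kᶜ, ∀ j ∈ Kᶜ, F i j = 0) : ∑ p : Pair n, F p.1.1 p.1.2 =
      (∑ i ∈ K, ∑ j ∈ K, F i j - ∑ i ∈ K, F i i) / 2 + ∑ j ∈ Kᶜ, ∑ i ∈ K, F i j := by
  rw [sum_pair F hF]
  simp only [← sum_add_sum_compl K, sum_add_distrib]
  rw [sum_eq_zero fun i hi => sum_eq_zero (h0 i hi), sum_eq_zero fun i hi => h0 i hi i hi,
    sum_comm (s := K) (t := Kᶜ),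
    show ∑ i ∈ Kᶜ, ∑ j ∈ K, F i j = ∑ j ∈ Kᶜ, ∑ i ∈ K, F i j by simp only [hF]]
  ring

namespace Hist

variable {H : Hist P}

omit [Fintype P] in
theorem φ_diag (γ : ℝ) {a b : P} (ha : (H.e a).1 = (H.e a).2) (hb : (H.e b).1 = (H.e b).2) :
    H.φ γ a b = 0 := by simp [φ, yy, ha, hb]

theorem Good.φ_symm (h : H.Good) (γ : ℝ) (a b : P) : H.φ γ a b = H.φ γ b a := by
  simp only [φ, yy, h.symm a b, mul_comm]

theorem Good.c_h (h : H.Good) (γ : ℝ) {a : P} (ha : H.f a ≠ 0) : (H.c γ).h a = H.h a := by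
  simp only [c]
  rw [sum_eq_zero fun b _ => ?_, neg_zero, exp_zero, mul_one]
  by_cases hb : H.f b = 0
  · simp [hb]
  · simp [φ_diag γ (h.diag a ha) (h.diag b hb)]

/-- the part of the increment inside the marked set -/
noncomputable def rr (H : Hist P) (γ : ℝ) (K : Finset (Fin n)) (a : Fin n → P) : ℝ :=
  (∑ i ∈ K, ∑ j ∈ K, H.φ γ (a i) (a j) - ∑ i ∈ K, H.φ γ (a i) (a i)) / 2

/-- the part of the increment between the marked set and another site -/
noncomputable def ss (H : Hist P) (γ : ℝ) (K : Finset (Fin n)) (a : Fin n → P) (b : P) : ℝ :=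
  ∑ i ∈ K, H.φ γ (a i) b

theorem Good.c_W (h : H.Good) (γ : ℝ) {K : Finset (Fin n)} {a : Fin n → P}
    (ha : ∀ j ∈ Kᶜ, H.f (a j) ≠ 0) : (H.c γ).W n a = H.W n a *
      (exp (-(H.rr γ K a / n : ℝ)) * ∏ j ∈ Kᶜ, exp (-(H.ss γ K a (a j) / n : ℝ))) := by
  have e := sum_pair_split K (fun i j => H.φ γ (a i) (a j)) (fun i j => h.φ_symm γ _ _)
    fun i hi j hj => φ_diag γ (h.diag _ (ha i hi)) (h.diag _ (ha j hj))
  have e2 : ∑ p : Pair n, (H.c γ).X (a p.1.1) (a p.1.2) ^ 2 / 2 =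
      ∑ p : Pair n, H.X (a p.1.1) (a p.1.2) ^ 2 / 2 + (H.rr γ K a + ∑ j ∈ Kᶜ, H.ss γ K a (a j)) := by
    rw [rr, ← show _ = _ + ∑ j ∈ Kᶜ, H.ss γ K a (a j) from e, ← sum_add_distrib]
    exact sum_congr rfl fun p _ => by
      simp only [c, φ]
      ring
  rw [W, W, e2, ← exp_sum, ← exp_add, ← exp_add, sum_neg_distrib, ← ofReal_sum,
    ← sum_div Kᶜ]
  congr 1
  push_cast
  ring

theorem Good.c_prod (h : H.Good) (γ : ℝ) {K : Finset (Fin n)} {a : Fin n → P}
    (ha : ∀ j ∈ Kᶜ, H.f (a j) ≠ 0) : ∏ i, (H.c γ).h (a i) =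
      (∏ i, H.h (a i)) * exp (-∑ b, H.f b * H.h b * H.ss γ K a b) := by
  rw [← prod_mul_prod_compl K, ← prod_mul_prod_compl K, prod_congr rfl fun j hj => h.c_h γ (ha j hj)]
  simp only [c, prod_mul_distrib, ← exp_sum, ss, ofReal_sum, mul_sum, sum_neg_distrib]
  rw [sum_comm]
  ring

theorem Good.c_fn (h : H.Good) (γ : ℝ) (p : P) {K : Finset (Fin n)} {g : (Fin n → P) → ℂ}
    (hg : DependsOn g K) : (H.c γ).fn ((H.c γ).df n) K g =
      H.fn (H.df n) K (fun a => g a * exp (-(H.rr γ K a / n : ℝ)) *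
        ∏ j ∈ Kᶜ, (1 + (exp (-(H.ss γ K a (a j) / n : ℝ)) - 1))) +
      ∑ x : K → P, (g (ex K p x) * ∏ i ∈ K, H.h (ex K p x i)) *
        (exp (-(H.rr γ K (ex K p x) / n : ℝ)) * (∑ b, H.f b * H.h b *
          exp (-(H.ss γ K (ex K p x) b / n : ℝ))) ^ (n - K.card) -
        exp (-∑ b, H.f b * H.h b * H.ss γ K (ex K p x) b)) := by
  have d0 : ∀ a a' : Fin n → P, (∀ i ∈ (K : Set (Fin n)), a i = a' i) →
      ∏ i ∈ K, H.h (a i) = ∏ i ∈ K, H.h (a' i) ∧ H.rr γ K a = H.rr γ K a' ∧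
        H.ss γ K a = H.ss γ K a' := fun a a' ha =>
    ⟨prod_congr rfl fun i hi => by rw [ha i hi], by
      rw [rr, rr, sum_congr rfl fun i hi => sum_congr rfl fun j hj => by rw [ha i hi, ha j hj],
        sum_congr rfl fun i hi => show H.φ γ (a i) (a i) = _ by rw [ha i hi]],
      funext fun b => sum_congr rfl fun i hi => by rw [ha i hi]⟩
  have e1 := sum_split K p (G := fun a => (g a * ∏ i ∈ K, H.h (a i)) * exp (-(H.rr γ K a / n : ℝ)))
    (t := fun _ a b => H.f b * H.h b * exp (-(H.ss γ K a b / n : ℝ)))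
    (fun a a' ha => by simp only [hg ha, d0 a a' ha]) fun _ b a a' ha => by simp only [d0 a a' ha]
  have e2 := sum_split K p (G := fun a => (g a * ∏ i ∈ K, H.h (a i)) *
    exp (-∑ b, H.f b * H.h b * H.ss γ K a b)) (t := fun _ _ b => H.f b * H.h b)
    (fun a a' ha => by simp only [hg ha, d0 a a' ha]) fun _ _ _ _ _ => rfl
  simp only [h.mass, prod_const, card_compl, Fintype.card_fin, one_pow, mul_one] at e1 e2
  simp only [mul_sub, sum_sub_distrib, ← mul_assoc, ← e1, ← e2, fn, add_sub_cancel]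
  rw [← sum_sub_distrib, ← sum_add_distrib]
  refine sum_congr rfl fun a _ => ?_
  by_cases ha : ∀ j ∈ Kᶜ, H.f (a j) ≠ 0
  · rw [df, df, h.c_W γ ha, h.c_prod γ ha, ← prod_mul_prod_compl K]
    simp only [prod_mul_distrib, c]
    ring
  · push Not at ha
    obtain ⟨j, hj, h0⟩ := ha
    simp only [prod_mul_distrib, c, prod_eq_zero (f := fun j => H.f (a j)) hj h0]
    ring

theorem Good.c (h : H.Good) (γ : ℝ) : (H.c γ).Good := by
  refine ⟨fun a b => by simp only [Hist.c, yy, h.symm a b, mul_comm], h.diag, ?_, ?_⟩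
  · rw [← h.mass]
    refine sum_congr rfl fun a _ => ?_
    by_cases ha : H.f a = 0
    · simp [Hist.c, ha]
    · rw [h.c_h γ ha]
      rfl
  obtain ⟨p⟩ := h.ne
  obtain ⟨D, D0, hD⟩ := h.small
  obtain ⟨c, c0, hc⟩ : ∃ c, 0 ≤ c ∧ ∀ a b, |H.φ γ a b| ≤ c :=
    ⟨∑ x : P × P, |H.φ γ x.1 x.2|, by positivity, fun a b =>
      single_le_sum (f := fun x : P × P => |H.φ γ x.1 x.2|) (fun _ _ => abs_nonneg _)
        (mem_univ (a, b))⟩
  obtain ⟨A, A0, hA⟩ : ∃ A, 0 ≤ A ∧ ∀ a, ‖H.f a‖ ≤ A ∧ ‖H.h a‖ ≤ A :=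
    ⟨∑ a, ‖H.f a‖ + ∑ a, ‖H.h a‖, by positivity, fun a =>
      ⟨le_add_of_le_of_nonneg (single_le_sum (f := fun a => ‖H.f a‖) (fun _ _ => norm_nonneg _)
        (mem_univ a)) (by positivity),
      le_add_of_nonneg_of_le (by positivity) (single_le_sum (f := fun a => ‖H.h a‖)
        (fun _ _ => norm_nonneg _) (mem_univ a))⟩⟩
  obtain ⟨E, E0, hE⟩ := anal _ h.mass c0
  refine ⟨D * Real.exp (c + c * Real.exp c * A * D) + (1 + Fintype.card P * A * E), by positivity,
    fun n K g C hn hg hC => ?_⟩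
  have C0 : 0 ≤ C := (norm_nonneg _).trans (hC fun _ => p)
  have n0 : (0 : ℝ) < n := by exact_mod_cast hn
  have hk : K.card ≤ n := by simpa using card_le_univ K
  have hk' : (K.card : ℝ) ≤ n := by exact_mod_cast hk
  have hs : ∀ a b, |H.ss γ K a b| ≤ c * K.card := fun a b =>
    (abs_sum_le_sum_abs _ _).trans ((sum_le_card_nsmul _ _ _ fun i _ => hc _ _).trans_eq
      (by rw [nsmul_eq_mul, mul_comm]))
  have hr : ∀ a, |H.rr γ K a| ≤ c * K.card ^ 2 := fun a => by
    have h1 : |∑ i ∈ K, ∑ j ∈ K, H.φ γ (a i) (a j)| ≤ K.card * (c * K.card) :=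
      (abs_sum_le_sum_abs _ _).trans ((sum_le_card_nsmul _ _ _ fun i _ => by
        simpa only [ss, h.φ_symm γ _ (a i)] using hs a (a i)).trans_eq (nsmul_eq_mul _ _))
    have h2 : |∑ i ∈ K, H.φ γ (a i) (a i)| ≤ K.card * c :=
      (abs_sum_le_sum_abs _ _).trans ((sum_le_card_nsmul _ _ _ fun i _ => hc _ _).trans_eq
        (nsmul_eq_mul _ _))
    have h3 : (K.card : ℝ) ≤ K.card ^ 2 := by exact_mod_cast Nat.le_self_pow two_ne_zero _
    rw [rr, abs_div, abs_two]
    nlinarith [abs_sub (∑ i ∈ K, ∑ j ∈ K, H.φ γ (a i) (a j)) (∑ i ∈ K, H.φ γ (a i) (a i))]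
  have x1 : ∀ t B : ℝ, |t| ≤ B → ‖-((t / n : ℝ) : ℂ)‖ ≤ B / n := fun t B ht => by
    rw [norm_neg, norm_real, Real.norm_eq_abs, abs_div, abs_of_pos n0]
    gcongr
  have b1 := hD.expand D0 hn (K := K) (g := fun a => g a * exp (-(H.rr γ K a / n : ℝ)))
    (w := fun a b => exp (-(H.ss γ K a b / n : ℝ)) - 1) (C := C * Real.exp (c * K.card))
    (ω := c * K.card / n * Real.exp c * A)
    (fun a a' ha => by
      dsimp only
      rw [rr, rr, hg ha, sum_congr rfl fun i hi => sum_congr rfl fun j hj => by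
        rw [ha i hi, ha j hj], sum_congr rfl fun i hi => show H.φ γ (a i) (a i) = _ by rw [ha i hi]])
    (fun a => by
      rw [norm_mul]
      refine mul_le_mul (hC a) ((norm_exp_le_exp_norm _).trans (Real.exp_le_exp.2
        ((x1 _ _ (hr a)).trans ?_))) (norm_nonneg _) C0
      rw [div_le_iff₀ n0, sq, ← mul_assoc]
      gcongr)
    (by positivity)
    (fun b a a' ha => by
      dsimp only
      rw [ss, ss, sum_congr rfl fun i hi => by rw [ha i hi]])
    (fun a b => by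
      rw [norm_mul]
      refine mul_le_mul ((norm_exp_one _).trans ?_) (hA b).1 (norm_nonneg _) (by positivity)
      gcongr
      · exact x1 _ _ (hs a b)
      · refine (x1 _ _ (hs a b)).trans ?_
        rw [div_le_iff₀ n0]
        gcongr)
    (by positivity)
  rw [h.c_fn γ p hg]
  refine (norm_add_le _ _).trans ((add_le_add b1 (norm_sum_le_of_le
    (n := fun _ => C * A ^ K.card * (E ^ K.card / n)) _ fun x _ => ?_)).trans ?_)
  · rw [norm_mul, norm_mul, norm_prod, ← prod_const]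
    exact mul_le_mul (mul_le_mul (hC _) (prod_le_prod (fun _ _ => norm_nonneg _)
      fun i _ => (hA _).2) (by positivity) C0) (hE n _ _ _ hn hk (hs _) (hr _)) (norm_nonneg _)
      (by positivity)
  have e1 : C * Real.exp (c * K.card) * D ^ (K.card + 1) *
      Real.exp (n * (c * K.card / n * Real.exp c * A * D)) =
      C * (D ^ (K.card + 1) * Real.exp (c + c * Real.exp c * A * D) ^ K.card) := by
    rw [← Real.exp_nat_mul, mul_add, Real.exp_add]
    field_simp
  have h1 : D ^ (K.card + 1) * Real.exp (c + c * Real.exp c * A * D) ^ K.card ≤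
      (D * Real.exp (c + c * Real.exp c * A * D)) ^ (K.card + 1) := by
    rw [mul_pow]
    gcongr
    · exact Real.one_le_exp (by positivity)
    · exact K.card.le_succ
  have h2 : (Fintype.card P * A * E) ^ K.card ≤ (1 + Fintype.card P * A * E) ^ (K.card + 1) :=
    (pow_le_pow_left₀ (by positivity) (by linarith) _).trans
      (pow_le_pow_right₀ (le_add_of_nonneg_right (by positivity)) K.card.le_succ)
  rw [e1, sum_const, card_univ, Fintype.card_fun, Fintype.card_coe, nsmul_eq_mul]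
  calc _ = C * (D ^ (K.card + 1) * Real.exp (c + c * Real.exp c * A * D) ^ K.card +
        (Fintype.card P * A * E) ^ K.card) / n := by
        push_cast
        ring
    _ ≤ _ := by
        gcongr
        exact (add_le_add h1 h2).trans (pow_add_pow_le (by positivity) (by positivity)
          K.card.succ_ne_zero)

end Hist

end Vale.Agent.P367L
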