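import Vale.Agent.P367L.Anal

/-! Path sums with marked sites. -/

namespace Vale.Agent.P367L

open Finset Complex Vale.Agent.P146

noncomputable section

/-- one site histories: traced weight, limit correction, end points, pair phase -/
structure Hist (P : Type) where
  f : P → ℂ
  h : P → ℂ
  e : P → Bool × Bool
  X : P → P → ℝ

variable {P P' : Type} [Fintype P] [Fintype P'] {n : ℕ}

/-- extension of a configuration on the marked sites -/
def ex (K : Finset (Fin n)) (p : P) (x : K → P) : Fin n → P :=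
  fun i => if h : i ∈ K then x ⟨i, h⟩ else p

omit [Fintype P] in
theorem ex_mem {K : Finset (Fin n)} (p : P) (x : K → P) (i : K) : ex K p x i = x i := dif_pos i.2

theorem sum_split (K : Finset (Fin n)) (p : P) {G : (Fin n → P) → ℂ}
    {t : Fin n → (Fin n → P) → P → ℂ} (hG : DependsOn G K)
    (ht : ∀ j b, DependsOn (fun a => t j a b) K) :
    ∑ a, G a * ∏ j ∈ Kᶜ, t j a (a j) = ∑ x : K → P, G (ex K p x) * ∏ j ∈ Kᶜ, ∑ b, t j (ex K p x) b := by
  rw [← (Equiv.piEquivPiSubtypeProd (· ∈ K) fun _ => P).symm.sum_comp, Fintype.sum_prod_type]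
  refine sum_congr rfl fun x _ => ?_
  have e : ∀ F : Fin n → ℂ, ∏ j ∈ Kᶜ, F j = ∏ j : {j // ¬j ∈ K}, F j := fun F =>
    prod_subtype _ (by simp) F
  rw [e, Fintype.prod_sum, mul_sum]
  refine sum_congr rfl fun y _ => ?_
  have h1 : ∀ i ∈ (K : Set (Fin n)), (Equiv.piEquivPiSubtypeProd (· ∈ K) fun _ => P).symm (x, y) i =
      ex K p x i := fun i hi => by
    have hi' : i ∈ K := hi
    simp [ex, hi']
  rw [e, hG h1]
  refine congrArg _ (prod_congr rfl fun j _ => ?_)
  refine (ht j _ h1).trans ?_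
  simp [j.2]

namespace Hist

variable (H : Hist P)

/-- the averaged phase -/
def W (n : ℕ) (a : Fin n → P) : ℂ :=
  exp (-((∑ p : Pair n, H.X (a p.1.1) (a p.1.2) ^ 2 / 2) / n : ℝ))

/-- path sum with the marked sites `K` -/
def fn (u : (Fin n → P) → ℂ) (K : Finset (Fin n)) (g : (Fin n → P) → ℂ) : ℂ :=
  ∑ a, g a * u a * ∏ j ∈ Kᶜ, H.f (a j)

/-- the difference of the weights -/
def df (n : ℕ) (a : Fin n → P) : ℂ := H.W n a - ∏ i, H.h (a i)

def Small (D : ℝ) : Prop := ∀ (n : ℕ) (K : Finset (Fin n)) (g : (Fin n → P) → ℂ) (C : ℝ), 0 < n →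
  DependsOn g K → (∀ a, ‖g a‖ ≤ C) → ‖H.fn (H.df n) K g‖ ≤ C * D ^ (K.card + 1) / n

structure Good : Prop where
  symm : ∀ a b, H.X a b = H.X b a
  diag : ∀ a, H.f a ≠ 0 → (H.e a).1 = (H.e a).2
  mass : ∑ a, H.f a * H.h a = 1
  small : ∃ D, 0 ≤ D ∧ H.Small D

variable {H}

theorem Good.ne (h : H.Good) : Nonempty P := by
  by_contra hn
  have := h.mass
  rw [not_nonempty_iff] at hn
  simp at this

theorem good_zero (hX : ∀ a b, H.X a b = 0) (hh : ∀ a, H.h a = 1)
    (hd : ∀ a, H.f a ≠ 0 → (H.e a).1 = (H.e a).2) (hm : ∑ a, H.f a = 1) : H.Good where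
  symm a b := by rw [hX, hX]
  diag := hd
  mass := by simpa [hh] using hm
  small := ⟨0, le_rfl, fun n K g C hn _ hC => by
    simp [fn, df, W, hX, hh]⟩

open Classical in
/-- refinement of the histories -/
theorem Good.refine (h : H.Good) {H' : Hist P'} (π : P' → P) (hh : ∀ a, H'.h a = H.h (π a))
    (hX : ∀ a b, H'.X a b = H.X (π a) (π b))
    (hf : ∀ a, ∑ b, (if π b = a then H'.f b else 0) = H.f a)
    (hd : ∀ a, H'.f a ≠ 0 → (H'.e a).1 = (H'.e a).2) : H'.Good := by
  have hm : ∑ a, H'.f a * H'.h a = 1 := by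
    rw [← h.mass]
    simp only [← hf, sum_mul, ite_mul, zero_mul]
    rw [sum_comm]
    simp [hh]
  obtain ⟨p⟩ : Nonempty P' := by
    by_contra hn
    rw [not_nonempty_iff] at hn
    simp at hm
  obtain ⟨D, D0, hD⟩ := h.small
  refine ⟨fun a b => by rw [hX, hX, h.symm], hd, hm, Fintype.card P' * D, by positivity,
    fun n K g C hn hg hC => ?_⟩
  have C0 : 0 ≤ C := (norm_nonneg _).trans (hC fun _ => p)
  have e : H'.fn (H'.df n) K g = H.fn (H.df n) K fun a => ∑ x : K → P',
      g (ex K p x) * ∏ i ∈ K, if π (ex K p x i) = a i then 1 else 0 := by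
    have e1 : ∀ b : Fin n → P', H'.df n b = ∑ a : Fin n → P,
        H.df n a * ∏ i, if π (b i) = a i then 1 else 0 := fun b => by
      rw [sum_eq_single (fun i => π (b i)) (fun a _ ha => ?_) (by simp)]
      · simp [df, W, hX, hh]
      · obtain ⟨i, hi⟩ := Function.ne_iff.1 ha
        rw [prod_eq_zero (mem_univ i) (if_neg (Ne.symm hi)), mul_zero]
    simp only [fn, e1, mul_sum, sum_mul]
    rw [sum_comm]
    refine sum_congr rfl fun a _ => ?_
    have e2 := sum_split K p (G := fun b => g b * ∏ i ∈ K, if π (b i) = a i then 1 else 0)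
      (t := fun j _ b => if π b = a j then H'.f b else 0)
      (fun b b' hb => by
        dsimp only
        rw [hg hb, prod_congr rfl fun i hi => by rw [hb i hi]]) fun _ _ _ _ _ => rfl
    simp only [hf] at e2
    simp only [mul_right_comm _ (H.df n a), ← sum_mul, ← e2]
    rw [sum_mul]
    refine sum_congr rfl fun b _ => ?_
    rw [← prod_mul_prod_compl K, show ∏ j ∈ Kᶜ, (if π (b j) = a j then H'.f (b j) else 0) =
      (∏ j ∈ Kᶜ, if π (b j) = a j then (1 : ℂ) else 0) * ∏ j ∈ Kᶜ, H'.f (b j) by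
        simp [← prod_mul_distrib]]
    ring
  have c1 : (1 : ℝ) ≤ Fintype.card P' := by exact_mod_cast Fintype.card_pos_iff.2 ⟨p⟩
  rw [e, mul_pow, ← mul_assoc]
  refine hD n K _ _ hn (fun a a' ha => ?_) fun a => ?_
  · exact sum_congr rfl fun x _ => congrArg _ (prod_congr rfl fun i hi => by rw [ha i hi])
  · refine (norm_sum_le_of_le (n := fun _ => C) _ fun x _ => ?_).trans (by
      simpa [mul_comm] using mul_le_mul_of_nonneg_left (pow_le_pow_right₀ c1 K.card.le_succ) C0)
    rw [norm_mul, norm_prod, ← mul_one C]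
    refine mul_le_mul (hC _) (prod_le_one (fun _ _ => norm_nonneg _) fun i _ => ?_)
      (by positivity) C0
    split_ifs <;> simp

/-- expansion over the set of the sites which become marked -/
theorem Small.expand {D : ℝ} (hD : H.Small D) (D0 : 0 ≤ D) (hn : 0 < n) {K : Finset (Fin n)}
    {g : (Fin n → P) → ℂ} {w : (Fin n → P) → P → ℂ} {C ω : ℝ} (hg : DependsOn g K)
    (hC : ∀ a, ‖g a‖ ≤ C) (C0 : 0 ≤ C) (hw : ∀ b, DependsOn (fun a => w a b) K)
    (hω : ∀ a b, ‖w a b * H.f b‖ ≤ ω) (ω0 : 0 ≤ ω) :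
    ‖H.fn (H.df n) K fun a => g a * ∏ j ∈ Kᶜ, (1 + w a (a j))‖ ≤
      C * D ^ (K.card + 1) * Real.exp (n * (ω * D)) / n := by
  have e : (H.fn (H.df n) K fun a => g a * ∏ j ∈ Kᶜ, (1 + w a (a j))) = ∑ T ∈ Kᶜ.powerset,
      H.fn (H.df n) (K ∪ T) fun a => g a * ∏ j ∈ T, (w a (a j) * H.f (a j)) := by
    simp only [fn, prod_one_add, mul_sum, sum_mul]
    rw [sum_comm]
    refine sum_congr rfl fun T hT => sum_congr rfl fun a _ => ?_
    rw [← prod_sdiff (mem_powerset.1 hT), prod_mul_distrib, compl_union, sdiff_eq]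
    simp only [inf_eq_inter]
    ring
  rw [e]
  refine (norm_sum_le_of_le (n := fun T => C * D ^ (K.card + 1) / n * ∏ _j ∈ T, ω * D) _
    fun T hT => ?_).trans ?_
  · refine (hD n (K ∪ T) _ (C * ω ^ T.card) hn (fun a a' ha => ?_) fun a => ?_).trans_eq ?_
    · have h1 : ∀ i ∈ (K : Set (Fin n)), a i = a' i := fun i hi => ha i (by simp [show i ∈ K from hi])
      rw [hg h1, prod_congr rfl fun j hj => by
        rw [show w a (a j) = w a' (a j) from hw _ h1, ha j (by simp [hj])]]
    · rw [norm_mul, norm_prod, ← prod_const]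
      exact mul_le_mul (hC a) (prod_le_prod (fun _ _ => norm_nonneg _) fun j _ => hω _ _)
        (by positivity) C0
    · rw [card_union_of_disjoint (disjoint_compl_right.mono_right (mem_powerset.1 hT)),
        prod_const, mul_pow]
      ring
  · rw [← mul_sum, ← prod_one_add, mul_div_right_comm _ (Real.exp _)]
    refine mul_le_mul_of_nonneg_left ((Real.prod_one_add_le_exp_sum _ fun _ => by positivity).trans
      ?_) (by positivity)
    rw [sum_const, nsmul_eq_mul]
    gcongr
    simpa using card_le_univ Kᶜ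

end Hist

end

end Vale.Agent.P367L
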