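import Vale.Agent.P367L.Core
import Vale.Agent.P367.PS
import Vale.Agent.P367S.Mdl

/-! Definitions for part L. -/

namespace Vale.Agent.P367L

open Finset Complex Vale.Agent.P146 Vale.Agent.P367
open scoped InnerProductSpace ComplexConjugate

noncomputable section

variable {P Q : Type} [Fintype P] [Fintype Q]

/-- the increment of the pair phase -/
def yy (s t : Bool × Bool) : ℝ := spin s.1 * spin t.1 - spin s.2 * spin t.2

/-- the increment of the pair weight -/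
def Hist.φ (H : Hist P) (γ : ℝ) (a b : P) : ℝ :=
  ((H.X a b + γ * yy (H.e a) (H.e b)) ^ 2 - H.X a b ^ 2) / 2

/-- a cost gate -/
def Hist.c (H : Hist P) (γ : ℝ) : Hist P where
  f := H.f
  h a := H.h a * exp (-∑ b, H.f b * H.h b * H.φ γ a b)
  e := H.e
  X a b := H.X a b + γ * yy (H.e a) (H.e b)

/-- histories of one branch: amplitude, end point, pair phase -/
structure Br (Q : Type) where
  α : Q → ℂ
  e : Q → Bool
  Y : Q → Q → ℝ

def Br.zero : Br Bool where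
  α _ := ((1 / √2 : ℝ) : ℂ)
  e q := q
  Y _ _ := 0

/-- one layer: the cost gate, then the matrix `A` -/
def Br.step (B : Br Q) (γ : ℝ) (A : M2) : Br (Bool × Q) where
  α q := A q.1 (B.e q.2) * B.α q.2
  e q := q.1
  Y q r := B.Y q.2 r.2 + γ * (spin (B.e q.2) * spin (B.e r.2))

/-- pairs (forward branch, backward branch) -/
def Br.hist (B : Br Q) (h : Q × Q → ℂ) : Hist (Q × Q) where
  f a := if B.e a.1 = B.e a.2 then B.α a.1 * conj (B.α a.2) else 0
  h := h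
  e a := (B.e a.1, B.e a.2)
  X a b := B.Y a.1 b.1 - B.Y a.2 b.2

/-- the limit correction after one more layer -/
def Br.hstep (B : Br Q) (h : Q × Q → ℂ) (γ : ℝ) (a : (Bool × Q) × (Bool × Q)) : ℂ :=
  ((B.hist h).c γ).h (a.1.2, a.2.2)

/-- the pair observable of the energy -/
def Hist.κ (H : Hist P) (a b : P) : ℂ :=
  -(I * (H.X a b * spin (H.e a).1 * spin (H.e b).1 : ℝ))

/-- the state after `p` layers -/
def psi (n : ℕ) (J : Pair n → ℝ) (γ β : ℕ → ℝ) : ℕ → Bas n → ℂ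
  | 0 => plus n
  | p + 1 => tens (fun _ => RX (β p)) (cph n J (γ p) (psi n J γ β p))

/-- path representation of a state -/
def Rep (n : ℕ) (J : Pair n → ℝ) (ψ : Bas n → ℂ) (B : Br Q) : Prop :=
  ∀ σ, ψ σ = ∑ q : Fin n → Q, (∏ i, if B.e (q i) = σ i then B.α (q i) else 0) *
    exp (-(I * (∑ p : Pair n, J p * (B.Y (q p.1.1) (q p.1.2) / √(n : ℝ)) : ℝ)))

variable {H K : Type} [NormedAddCommGroup H] [InnerProductSpace ℂ H]
  [SeminormedAddCommGroup K] [InnerProductSpace ℂ K] (M : P367S.Mdl H K)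

/-- one layer of the limit model -/
def lay (U : K ≃ₗᵢ[ℂ] K) (γ β : ℝ) : K ≃ₗᵢ[ℂ] K :=
  (U.trans (M.cw ((γ : ℂ) • M.io (M.zed U)))).trans (M.bx β)

/-- the first `p` layers of the limit model -/
def UU (γ β : ℕ → ℝ) : ℕ → K ≃ₗᵢ[ℂ] K
  | 0 => LinearIsometryEquiv.refl ℂ K
  | p + 1 => lay M (UU γ β p) (γ p) (β p)

/-- path expansion in the limit model -/
structure Brid (U : K ≃ₗᵢ[ℂ] K) (S : K → K) (B : Br Q) (h : Q × Q → ℂ) (m : Q → ℂ) (ζ : Q → K) :
    Prop where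
  vac : U M.vac = ∑ q, m q • M.co (B.e q) (-M.io (ζ q))
  fld : ∀ q, U (ζ q) = ∑ r, (m r * B.Y q r) • M.co (B.e r) (-M.io (ζ r))
  amp : ∀ a : Q × Q, conj (m a.2) * m a.1 * exp (⟪-M.io (ζ a.2), -M.io (ζ a.1)⟫_ℂ -
    (‖-M.io (ζ a.2)‖ ^ 2 / 2 : ℝ) - (‖-M.io (ζ a.1)‖ ^ 2 / 2 : ℝ)) = B.α a.1 * conj (B.α a.2) * h a
  sum : ∀ x, S x = ∑ q, ⟪U x, m q • M.co (B.e q) (-M.io (ζ q))⟫_ℂ • ζ q

end

end Vale.Agent.P367L
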