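import Vale.Agent.P367L.Defs
import Vale.Agent.P367.TopU

namespace Vale.Agent.P367L

open Finset Complex MeasureTheory Vale.Agent.P146 Vale.Agent.P367
open scoped InnerProductSpace ComplexConjugate

/-- tensor power of a one qubit matrix -/
def expT (n : ℕ) (V : M2) : Op n := Matrix.of fun σ τ => ∏ i, V (σ i) (τ i)

theorem expT_mul (n : ℕ) (V W : M2) : expT n V * expT n W = expT n (V * W) := by
  ext σ τ
  simp only [expT, Matrix.mul_apply, Matrix.of_apply, ← Finset.prod_mul_distrib]
  rw [Finset.prod_univ_sum, Fintype.piFinset_univ]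

theorem expT_diag (n : ℕ) (d : Bool → ℂ) :
    expT n (Matrix.diagonal d) = Matrix.diagonal fun σ => ∏ i, d (σ i) := by
  ext σ τ
  by_cases h : σ = τ
  · subst h
    simp [expT]
  · obtain ⟨i, hi⟩ := Function.ne_iff.1 h
    rw [Matrix.diagonal_apply_ne _ h]
    exact Finset.prod_eq_zero (Finset.mem_univ i) (Matrix.diagonal_apply_ne _ hi)

theorem expT_one (n : ℕ) : expT n 1 = 1 := by
  rw [← Matrix.diagonal_one, expT_diag]
  simp

/-- the Hadamard matrix and its inverse -/
noncomputable def expH : M2 := Matrix.of fun a b => if a then 1 else (spin b : ℂ)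
noncomputable def expH' : M2 := Matrix.of fun a b => (if b then 1 else (spin a : ℂ)) / 2

theorem expH_mul : expH * expH' = 1 := by
  ext a b
  cases a <;> cases b <;> norm_num [expH, expH', Matrix.mul_apply, spin]

theorem expH_mul' : expH' * expH = 1 := by
  ext a b
  cases a <;> cases b <;> norm_num [expH, expH', Matrix.mul_apply, spin]

theorem expH_not (a b : Bool) : expH (!a) b = expH a b * spin b := by
  cases a <;> cases b <;> norm_num [expH, spin]

theorem expH_conj (β : ℝ) : expH * RZ β * expH' = RX β := by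
  have h1 : Complex.exp (-(I * β)) = Complex.cos β - Complex.sin β * I := by
    rw [show -(I * (β : ℂ)) = (-β) * I by ring, Complex.exp_mul_I, Complex.cos_neg, Complex.sin_neg]
    ring
  have h2 : Complex.exp (I * β) = Complex.cos β + Complex.sin β * I := by
    rw [mul_comm, Complex.exp_mul_I]
  ext a b
  cases a <;> cases b <;>
    simp [expH, expH', RZ, RX, Matrix.mul_apply, Matrix.diagonal_apply, spin, h1, h2] <;> ring

theorem expX_mul (n : ℕ) (i : Fin n) : pauliX n i * expT n expH = expT n expH * pauliZ n i := by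
  ext σ τ
  rw [pauliZ, Matrix.mul_diagonal, Matrix.mul_apply]
  simp only [pauliX, Matrix.of_apply, ite_mul, one_mul, zero_mul, Finset.sum_ite_eq',
    Finset.mem_univ, if_true, expT]
  rw [← Finset.mul_prod_erase _ _ (Finset.mem_univ i),
    ← Finset.mul_prod_erase _ _ (Finset.mem_univ i), Function.update_self, expH_not,
    Finset.prod_congr rfl fun j hj => by rw [Function.update_of_ne (Finset.ne_of_mem_erase hj)]]
  ring

theorem exp_mixer' (n : ℕ) (β : ℝ) : NormedSpace.exp (-(I * β) • mixer n) = expT n (RX β) := by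
  let U : (Op n)ˣ := ⟨expT n expH, expT n expH', by rw [expT_mul, expH_mul, expT_one],
    by rw [expT_mul, expH_mul', expT_one]⟩
  have h1 : (Matrix.diagonal fun σ : Bas n => ∑ i, -(I * (β * spin (σ i) : ℝ))) =
      -(I * β) • ∑ i, pauliZ n i := by
    ext σ τ
    by_cases h : σ = τ
    · subst h
      simp [pauliZ, Matrix.sum_apply, Finset.mul_sum, mul_assoc]
    · simp [pauliZ, Matrix.sum_apply, Matrix.diagonal_apply_ne _ h]
  have h2 : -(I * β) • mixer n =
      U.val * (Matrix.diagonal fun σ : Bas n => ∑ i, -(I * (β * spin (σ i) : ℝ))) * (U⁻¹).val := by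
    rw [h1, Matrix.mul_smul, Finset.mul_sum]
    change _ = (_ • ∑ i, expT n expH * pauliZ n i) * expT n expH'
    simp only [← expX_mul]
    rw [← Finset.sum_mul, Matrix.smul_mul, Matrix.mul_assoc, expT_mul, expH_mul, expT_one,
      Matrix.mul_one, mixer]
  rw [h2, Matrix.exp_units_conj, Matrix.exp_diagonal, ← expH_conj, ← expT_mul, ← expT_mul, RZ,
    expT_diag]
  congr 3
  funext σ
  rw [Pi.coe_exp, ← Complex.exp_eq_exp_ℂ, Complex.exp_sum]

/-- The matrices `pauliX n i` commute and square to one, so that the exponential of the sum is the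
product of `cos β - i sin β X_i` (`Matrix.exp_sum_of_commute` or a derivative argument); the entry
`σ τ` of the product over a set `s` of sites is `∏ i ∈ s, RX β (σ i) (τ i)` times the indicator of
`σ = τ` off `s` (induction on `s`).  Alternatively: diagonalise by the Hadamard transform. -/
theorem exp_mixer (n : ℕ) (β : ℝ) (ψ : Bas n → ℂ) :
    (NormedSpace.exp (-(I * β) • mixer n)).mulVec ψ = tens (fun _ => RX β) ψ := by
  rw [exp_mixer']
  rfl

/-- `cost_eq`, `Matrix.exp_diagonal` -/
theorem exp_cost (n : ℕ) (J : Pair n → ℝ) (γ : ℝ) (ψ : Bas n → ℂ) :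
    (NormedSpace.exp (-(I * γ) • cost n J)).mulVec ψ = cph n J γ ψ := by
  rw [cost_eq, ← Matrix.diagonal_smul, Matrix.exp_diagonal]
  funext σ
  rw [Matrix.mulVec_diagonal, Pi.coe_exp, ← Complex.exp_eq_exp_ℂ, cph]
  congr 2
  simp [mul_assoc]

/-- induction on `p` with `List.ofFn_succ_last` (or `List.ofFn_succ'`), `List.foldl_concat` -/
theorem qaoa_eq (n : ℕ) (J : Pair n → ℝ) (γ β : ℕ → ℝ) (p : ℕ) :
    qaoa n J (fun t : Fin p => γ t) (fun t : Fin p => β t) = psi n J γ β p := by
  induction p with
  | zero => rfl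
  | succ p ih =>
    unfold qaoa at ih ⊢
    rw [List.ofFn_succ', List.concat_eq_append, List.foldl_append]
    simp only [Fin.val_castSucc, Fin.val_last, List.foldl_cons, List.foldl_nil]
    rw [ih, layer, ← Matrix.mulVec_mulVec, exp_cost, exp_mixer, psi]

theorem uni_RX (t : ℝ) : Uni (RX t) := by
  rw [Uni, Matrix.mem_unitaryGroup_iff]
  have h := Complex.cos_sq_add_sin_sq (t : ℂ)
  ext a b
  cases a <;> cases b <;>
    simp [RX, Matrix.mul_apply, Matrix.star_apply, ← Complex.cos_conj, ← Complex.sin_conj] <;>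
    first
      | ring1
      | linear_combination h - Complex.sin (t : ℂ) ^ 2 * Complex.I_mul_I

theorem bM_eq (t : ℝ) : P367S.bM t = RX t := by
  ext a b
  cases a <;> cases b <;> simp [P367S.bM, P367S.Xm, RX]

end Vale.Agent.P367L
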