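import Vale.Agent.P367L.CStep

/-! The limit of pair observables, and the layers. -/

namespace Vale.Agent.P367L

open Finset Complex Filter Topology Vale.Agent.P146 Vale.Agent.P367
open scoped ComplexConjugate

variable {P Q : Type} [Fintype P] [Fintype Q] {n : ℕ}

theorem sum_two {ν : P → ℂ} (hν : ∑ a, ν a = 1) (κ : P → P → ℂ) {i j : Fin n} (hij : i ≠ j) :
    ∑ a : Fin n → P, (∏ k, ν (a k)) * κ (a i) (a j) = ∑ x, ∑ y, ν x * ν y * κ x y := by
  classical
  have e : ∀ x y, ν x * ν y = ∑ a : Fin n → P, (∏ k, ν (a k)) * (if a i = x then 1 else 0) *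
      if a j = y then 1 else 0 := fun x y => by
    have h1 := Fintype.prod_sum fun (k : Fin n) (b : P) => ν b *
      (if k = i then if b = x then 1 else 0 else 1) * if k = j then if b = y then 1 else 0 else 1
    simp only [prod_mul_distrib, prod_ite_eq', mem_univ, if_true] at h1
    rw [← h1, ← mul_prod_erase _ _ (mem_univ i), ← mul_prod_erase _ _
      (mem_erase.2 ⟨hij.symm, mem_univ j⟩), prod_eq_one fun k hk => ?_]
    · simp [hij, hij.symm]
    · simp only [mem_erase] at hk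
      simp [hk.1, hk.2.1, hν]
  simp only [e, sum_mul]
  rw [sum_congr rfl fun x _ => sum_comm, sum_comm]
  simp

theorem Hist.Good.lim {H : Hist P} (h : H.Good) (κ : P → P → ℂ) :
    Tendsto (fun n : ℕ => (∑ p : Pair n, ∑ a : Fin n → P,
      (∏ i, H.f (a i)) * H.W n a * κ (a p.1.1) (a p.1.2)) / n / n) atTop
      (𝓝 ((∑ a, ∑ b, H.f a * H.h a * (H.f b * H.h b) * κ a b) / 2)) := by
  obtain ⟨D, D0, hD⟩ := h.small
  obtain ⟨v, hv⟩ : ∃ v, v = ∑ a, ∑ b, H.f a * H.h a * (H.f b * H.h b) * κ a b := ⟨_, rfl⟩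
  obtain ⟨C, C0, hC⟩ : ∃ C, 0 ≤ C ∧ ∀ a b, ‖H.f a * H.f b * κ a b‖ ≤ C :=
    ⟨∑ x : P × P, ‖H.f x.1 * H.f x.2 * κ x.1 x.2‖, by positivity, fun a b =>
      single_le_sum (f := fun x : P × P => ‖H.f x.1 * H.f x.2 * κ x.1 x.2‖)
        (fun _ _ => norm_nonneg _) (mem_univ (a, b))⟩
  rw [← hv, tendsto_iff_norm_sub_tendsto_zero]
  refine squeeze_zero' (.of_forall fun _ => norm_nonneg _)
    ((eventually_gt_atTop 0).mono fun n hn => ?_)
    (tendsto_const_div_atTop_nhds_zero_nat (C * D ^ 3 + ‖v‖))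
  have n0 : (0 : ℝ) < n := by exact_mod_cast hn
  have e1 : ∀ p : Pair n, ∑ a : Fin n → P, (∏ i, H.f (a i)) * H.W n a * κ (a p.1.1) (a p.1.2) =
      H.fn (H.df n) {p.1.1, p.1.2}
        (fun a => H.f (a p.1.1) * H.f (a p.1.2) * κ (a p.1.1) (a p.1.2)) + v := fun p => by
    rw [hv, ← sum_two h.mass κ p.2.ne, Hist.fn, ← sum_add_distrib]
    refine sum_congr rfl fun a _ => ?_
    rw [prod_mul_distrib, ← prod_mul_prod_compl {p.1.1, p.1.2}, prod_pair p.2.ne, Hist.df]
    ring
  have e2 : (Fintype.card (Pair n) : ℝ) = (n * n - n) / 2 := by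
    simpa using sum_pair (n := n) (fun _ _ => 1) fun _ _ => rfl
  have e3 : (Fintype.card (Pair n) : ℂ) = (n * n - n) / 2 := by exact_mod_cast congrArg ofReal e2
  have n1 : (n : ℂ) ≠ 0 := by exact_mod_cast hn.ne'
  simp only [e1, sum_add_distrib, sum_const, card_univ, nsmul_eq_mul, e3]
  rw [show ∀ S : ℂ, (S + (n * n - n) / 2 * v) / n / n - v / 2 = S / n / n - v / 2 / n from
    fun S => by field_simp; ring, add_div]
  refine (norm_sub_le _ _).trans (add_le_add ?_ ?_)
  · rw [norm_div, norm_div, norm_natCast, div_div, div_le_iff₀ (by positivity)]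
    refine (norm_sum_le_of_le (n := fun _ => C * D ^ 3 / n) _ fun p _ => ?_).trans ?_
    · have h1 := hD n {p.1.1, p.1.2} (fun a => H.f (a p.1.1) * H.f (a p.1.2) *
        κ (a p.1.1) (a p.1.2)) C hn (fun a a' ha => by
          dsimp only
          rw [ha _ (by simp), ha p.1.2 (by simp)]) fun a => hC _ _
      rwa [card_pair p.2.ne] at h1
    · rw [sum_const, card_univ, nsmul_eq_mul, e2, mul_comm]
      gcongr
      nlinarith
  · rw [norm_div, norm_div, norm_natCast]
    gcongr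
    exact div_le_self (norm_nonneg _) (by simp)

theorem Br.good_zero : (Br.zero.hist fun _ => 1).Good := by
  refine Hist.good_zero (fun _ _ => sub_self _) (fun _ => rfl) (fun a ha => ?_) ?_
  · by_contra hn
    exact ha (if_neg hn)
  · have h1 : ((√2 : ℝ) : ℂ) * (√2 : ℝ) = 2 := by exact_mod_cast Real.mul_self_sqrt zero_le_two
    have h2 : ((√2 : ℝ) : ℂ) ≠ 0 := by simp
    simp [Br.hist, Br.zero, Fintype.sum_prod_type]
    field_simp
    linear_combination -h1

theorem sum_fib (_ : DecidableEq (Q × Q)) (F : (Bool × Q) × (Bool × Q) → ℂ) (a : Q × Q) :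
    ∑ b : (Bool × Q) × (Bool × Q), (if (b.1.2, b.2.2) = a then F b else 0) =
      ∑ s, ∑ t, F ((s, a.1), (t, a.2)) := by
  classical
  simp [Fintype.sum_prod_type, Prod.ext_iff, ite_and, sum_add_distrib]

theorem Br.good_step {B : Br Q} {h : Q × Q → ℂ} (hB : (B.hist h).Good) (γ : ℝ) {A : M2}
    (hA : Uni A) : ((B.step γ A).hist (B.hstep h γ)).Good := by
  refine (hB.c γ).refine (fun a => (a.1.2, a.2.2)) (fun _ => rfl) (fun a b => ?_) (fun a => ?_)
    fun a ha => ?_
  · simp only [Br.hist, Br.step, Hist.c, yy]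
    ring
  · have h1 := congrFun (congrFun (Matrix.mem_unitaryGroup_iff'.1 hA) (B.e a.2)) (B.e a.1)
    simp only [Matrix.mul_apply, Matrix.star_apply, Matrix.one_apply, Fintype.sum_bool,
      RCLike.star_def, eq_comm (a := B.e a.2)] at h1
    refine (sum_fib (Classical.decEq _) _ a).trans ?_
    simp only [Br.hist, Br.step, Hist.c, Fintype.sum_bool, map_mul, if_true, Bool.true_eq_false,
      Bool.false_eq_true, if_false]
    split_ifs at h1 ⊢ <;> linear_combination B.α a.1 * conj (B.α a.2) * h1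
  · by_contra hn
    exact ha (if_neg hn)

end Vale.Agent.P367L
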