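import Vale.Agent.P367L.Defs

namespace Vale.Agent.P367L

open Finset Complex MeasureTheory Vale.Agent.P146 Vale.Agent.P367
open scoped InnerProductSpace ComplexConjugate

variable {Q : Type} [Fintype Q]

open ProbabilityTheory in
theorem rep_g0 (x : ℝ) : ∫ t : ℝ, exp (-(I * x) * t) ∂gaussianReal 0 1 = exp (-(x ^ 2 / 2 : ℝ)) := by
  have h := complexMGF_id_gaussianReal (μ := 0) (v := 1) (-(I * x))
  simp only [complexMGF, id] at h
  rw [h]
  congr 1
  push_cast
  rw [neg_sq, mul_pow, I_sq]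
  ring

open ProbabilityTheory in
theorem rep_g1 (x : ℝ) :
    ∫ t : ℝ, t * exp (-(I * x) * t) ∂gaussianReal 0 1 = -(I * x) * exp (-(x ^ 2 / 2 : ℝ)) := by
  have h := hasDerivAt_complexMGF (X := id) (μ := gaussianReal 0 1) (z := -(I * x)) (by simp)
  have e : complexMGF id (gaussianReal 0 1) = fun z : ℂ => exp (z ^ 2 / 2) := by
    funext z
    rw [complexMGF_id_gaussianReal]
    simp
  rw [e] at h
  have h2 := (((hasDerivAt_id (-(I * (x : ℂ)))).fun_pow 2).div_const 2).cexp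
  have h3 := h.unique h2
  simp only [id] at h3
  rw [h3]
  have e2 : (-(I * (x : ℂ))) ^ 2 / 2 = -((x ^ 2 / 2 : ℝ) : ℂ) := by
    push_cast
    rw [neg_sq, mul_pow, I_sq]
    ring
  rw [e2]
  push_cast
  ring

open ProbabilityTheory in
theorem rep_gi (x : ℝ) (c : Prop) [Decidable c] :
    Integrable (fun t : ℝ => (if c then (t : ℂ) else 1) * exp (-(I * x) * t)) (gaussianReal 0 1) := by
  have h1 : Integrable (fun t : ℝ => if c then (t : ℂ) else 1) (gaussianReal 0 1) := by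
    split_ifs
    · exact ((memLp_id_gaussianReal (μ := 0) (v := 1) 1).integrable (by simp)).ofReal
    · exact integrable_const _
  refine h1.mul_bdd (c := 1) (by fun_prop) (Filter.Eventually.of_forall fun t => ?_)
  rw [norm_exp]
  simp

/-- Product measure (`integral_fintype_prod_eq_prod`, `Integrable.fintype_prod`) and the one
dimensional formulas `∫ exp (-i x t) = exp (-t ^ 2 / 2)` (`charFun_gaussianReal` or
`complexMGF_id_gaussianReal`), `∫ x exp (-i x t) = -i t exp (-t ^ 2 / 2)` (differentiate `charFun`: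
`iteratedDeriv_charFun`, or `hasDerivAt_complexMGF`). -/
theorem gauss_int {n : ℕ} (x : Pair n → ℝ) (p : Pair n) :
    Integrable (fun J : Pair n → ℝ => (J p : ℂ) * exp (-(I * (∑ q, J q * x q : ℝ)))) (disorder n) ∧
    ∫ J : Pair n → ℝ, (J p : ℂ) * exp (-(I * (∑ q, J q * x q : ℝ))) ∂disorder n =
      -(I * x p) * exp (-(∑ q, x q ^ 2 / 2 : ℝ)) := by
  have e : (fun J : Pair n → ℝ => (J p : ℂ) * exp (-(I * (∑ q, J q * x q : ℝ)))) =
      fun J => ∏ q, ((if q = p then (J q : ℂ) else 1) * exp (-(I * x q) * J q)) := by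
    funext J
    rw [prod_mul_distrib, ← exp_sum, prod_ite_eq']
    simp only [mem_univ, if_true]
    congr 2
    push_cast
    rw [mul_sum, ← sum_neg_distrib]
    exact sum_congr rfl fun q _ => by ring
  rw [e]
  refine ⟨Integrable.fintype_prod (f := fun q (t : ℝ) =>
    (if q = p then (t : ℂ) else 1) * exp (-(I * x q) * t)) fun q => rep_gi _ _, ?_⟩
  rw [disorder, integral_fintype_prod_eq_prod (fun q (t : ℝ) =>
    (if q = p then (t : ℂ) else 1) * exp (-(I * x q) * t))]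
  have e2 : ∀ q, ∫ t : ℝ, (if q = p then (t : ℂ) else 1) * exp (-(I * x q) * t)
      ∂ProbabilityTheory.gaussianReal 0 1 =
      (if q = p then -(I * x q) else 1) * exp (-(x q ^ 2 / 2 : ℝ)) := fun q => by
    split_ifs
    · exact rep_g1 _
    · simp only [one_mul]
      exact rep_g0 _
  simp only [e2]
  rw [prod_mul_distrib, ← exp_sum, prod_ite_eq']
  simp only [mem_univ, if_true]
  congr 2
  push_cast
  rw [sum_neg_distrib]

theorem rep_pick {n : ℕ} (s : Bas n) (c : Bas n → Fin n → ℂ) (F : Bas n → ℂ) :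
    ∑ τ : Bas n, (∏ i, if s i = τ i then c τ i else 0) * F τ = (∏ i, c s i) * F s := by
  rw [sum_eq_single s (fun τ _ h => ?_) (by simp)]
  · simp
  · obtain ⟨i, hi⟩ := Function.ne_iff.1 h
    rw [prod_eq_zero (mem_univ i) (if_neg (Ne.symm hi)), zero_mul]

theorem rep_pick' {n : ℕ} (s : Bas n) (c : Bas n → Fin n → ℂ) (F : Bas n → ℂ) :
    ∑ τ : Bas n, (∏ i, if τ i = s i then c τ i else 0) * F τ = (∏ i, c s i) * F s := by
  rw [← rep_pick s c F]
  simp only [eq_comm]

/-- only `q = σ` contributes -/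
theorem rep_zero (n : ℕ) (J : Pair n → ℝ) : Rep n J (plus n) Br.zero := by
  intro σ
  refine Eq.trans ?_ (rep_pick' σ (fun _ _ => ((1 / √2 : ℝ) : ℂ)) fun q =>
    exp (-(I * (∑ p : Pair n, J p * ((0 : ℝ) / √(n : ℝ)) : ℝ)))).symm
  simp [plus]

/-- Sum over `Fin n → Bool × Q` with `Equiv.arrowProdEquivProdArrow`; only the first component `σ`
contributes; on the left exchange the sums, only `τ = fun i => B.e (q i)` contributes. -/
theorem rep_step {n : ℕ} {J : Pair n → ℝ} {ψ : Bas n → ℂ} {B : Br Q} (h : Rep n J ψ B) (γ : ℝ)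
    (A : M2) : Rep n J (tens (fun _ => A) (cph n J γ ψ)) (B.step γ A) := by
  intro σ
  rw [← (Equiv.arrowProdEquivProdArrow (Fin n) (fun _ => Bool) fun _ => Q).symm.sum_comp,
    Fintype.sum_prod_type, sum_comm]
  simp only [tens, cph, h _, mul_sum]
  rw [sum_comm]
  refine sum_congr rfl fun q _ => ?_
  have e1 := rep_pick (fun i => B.e (q i)) (fun _ i => B.α (q i)) fun τ =>
    (∏ i, A (σ i) (τ i)) * exp (-(I * (γ * ham n J τ : ℝ))) *
      exp (-(I * (∑ p : Pair n, J p * (B.Y (q p.1.1) (q p.1.2) / √(n : ℝ)) : ℝ)))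
  have e2 := rep_pick' σ (fun τ i => A (τ i) (B.e (q i)) * B.α (q i)) fun _ =>
    exp (-(I * (∑ p : Pair n, J p * ((B.Y (q p.1.1) (q p.1.2) +
      γ * (spin (B.e (q p.1.1)) * spin (B.e (q p.1.2)))) / √(n : ℝ)) : ℝ)))
  refine Eq.trans ?_ e2.symm
  refine Eq.trans (sum_congr rfl fun τ _ => ?_) (e1.trans ?_)
  · ring
  · rw [prod_mul_distrib, mul_assoc (∏ i, A (σ i) _), ← exp_add, ← mul_assoc, mul_comm (∏ i, B.α _)]
    congr 2
    rw [← neg_add, ← mul_add, ← ofReal_add, ham, ← mul_assoc, mul_sum, ← sum_add_distrib]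
    congr 3
    exact sum_congr rfl fun p _ => by ring

theorem rep_en {n : ℕ} {J : Pair n → ℝ} {ψ : Bas n → ℂ} {B : Br Q} (hψ : Rep n J ψ B)
    (h : Q × Q → ℂ) :
    (en n J ψ : ℂ) = ∑ p : Pair n, ∑ a : Fin n → Q × Q, ((∏ i, (B.hist h).f (a i)) *
      (spin (B.e (a p.1.1).1) * spin (B.e (a p.1.2).1) / √(n : ℝ) : ℝ)) *
      ((J p : ℂ) * exp (-(I * (∑ q : Pair n,
        J q * ((B.hist h).X (a q.1.1) (a q.1.2) / √(n : ℝ)) : ℝ)))) := by
  rw [sum_comm, ← (Equiv.arrowProdEquivProdArrow (Fin n) (fun _ => Q) fun _ => Q).symm.sum_comp,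
    Fintype.sum_prod_type, en, ofReal_sum]
  have e0 : ∀ σ (T : (Fin n → Q) → ℂ), ψ σ = ∑ q, T q → ((ham n J σ * ‖ψ σ‖ ^ 2 : ℝ) : ℂ) =
      ∑ q, ∑ r, ham n J σ * (T q * conj (T r)) := fun σ T hT => by
    simp only [← mul_sum]
    rw [← sum_mul, ← map_sum, ← hT, mul_conj']
    push_cast
    rfl
  rw [sum_congr rfl fun σ _ => e0 σ _ (hψ σ), sum_comm]
  refine sum_congr rfl fun q _ => ?_
  rw [sum_comm]
  refine sum_congr rfl fun r _ => ?_
  have e1 := rep_pick (fun i => B.e (q i))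
    (fun τ i => B.α (q i) * if B.e (r i) = τ i then conj (B.α (r i)) else 0) fun τ =>
    (ham n J τ : ℂ) * (exp (-(I * (∑ p : Pair n, J p * (B.Y (q p.1.1) (q p.1.2) / √(n : ℝ)) : ℝ))) *
      exp (I * (∑ p : Pair n, J p * (B.Y (r p.1.1) (r p.1.2) / √(n : ℝ)) : ℝ)))
  refine Eq.trans (sum_congr rfl fun τ _ => ?_) (e1.trans ?_)
  · have e2 : (∏ i, if B.e (q i) = τ i then B.α (q i) *
        if B.e (r i) = τ i then conj (B.α (r i)) else 0 else 0) =
        (∏ i, if B.e (q i) = τ i then B.α (q i) else 0) *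
          ∏ i, if B.e (r i) = τ i then conj (B.α (r i)) else 0 := by
      rw [← prod_mul_distrib]
      exact prod_congr rfl fun i _ => by split_ifs <;> simp
    rw [e2, map_mul, map_prod, ← exp_conj]
    simp only [map_neg, map_mul, conj_I, conj_ofReal, apply_ite conj, map_zero, neg_mul, neg_neg]
    ring
  · have e2 : (∏ i, B.α (q i) * if B.e (r i) = B.e (q i) then conj (B.α (r i)) else 0) =
        ∏ i, (B.hist h).f (q i, r i) := prod_congr rfl fun i _ => by
      simp only [Br.hist, eq_comm (a := B.e (r i))]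
      split_ifs <;> simp
    have e3 : exp (-(I * (∑ p : Pair n, J p * (B.Y (q p.1.1) (q p.1.2) / √(n : ℝ)) : ℝ))) *
        exp (I * (∑ p : Pair n, J p * (B.Y (r p.1.1) (r p.1.2) / √(n : ℝ)) : ℝ)) =
        exp (-(I * (∑ p : Pair n, J p *
          ((B.hist h).X (q p.1.1, r p.1.1) (q p.1.2, r p.1.2) / √(n : ℝ)) : ℝ))) := by
      rw [← exp_add]
      congr 1
      simp only [Br.hist, sub_div, mul_sub, sum_sub_distrib, ofReal_sub]
      ring
    rw [e2, e3, ham, mul_sum, ofReal_sum, sum_mul, mul_sum]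
    refine sum_congr rfl fun p _ => ?_
    simp only [Equiv.arrowProdEquivProdArrow, Equiv.coe_fn_symm_mk]
    push_cast
    ring

/-- `‖ψ σ‖ ^ 2 = ψ σ * conj (ψ σ)` is a double sum over `q r : Fin n → Q`; the sum over `σ` keeps
`σ = fun i => B.e (q i)` and gives `∏ i, (B.hist h).f (q i, r i)`; then `gauss_int` with
`x p = X (a p.1.1) (a p.1.2) / √n` (`integral_re`, `integral_finsetSum`). -/
theorem rep_energy {n : ℕ} {ψ : (Pair n → ℝ) → Bas n → ℂ} {B : Br Q}
    (hψ : ∀ J, Rep n J (ψ J) B) (h : Q × Q → ℂ) :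
    ∫ J, en n J (ψ J) ∂disorder n = ((∑ p : Pair n, ∑ a : Fin n → Q × Q,
      (∏ i, (B.hist h).f (a i)) * (B.hist h).W n a * (B.hist h).κ (a p.1.1) (a p.1.2)) / n).re := by
  rw [← ofReal_re (∫ J, en n J (ψ J) ∂disorder n), ← integral_complex_ofReal]
  congr 1
  simp only [fun J => rep_en (hψ J) h]
  rw [integral_finsetSum _ fun p _ => integrable_finsetSum _ fun a _ =>
    (gauss_int _ p).1.const_mul _, sum_div]
  refine sum_congr rfl fun p _ => ?_
  rw [integral_finsetSum _ fun a _ => (gauss_int _ p).1.const_mul _, sum_div]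
  refine sum_congr rfl fun a _ => ?_
  rw [integral_const_mul, (gauss_int _ p).2]
  have e1 : (∑ q : Pair n, ((B.hist h).X (a q.1.1) (a q.1.2) / √(n : ℝ)) ^ 2 / 2) =
      (∑ q : Pair n, (B.hist h).X (a q.1.1) (a q.1.2) ^ 2 / 2) / (n : ℝ) := by
    rw [sum_div]
    refine sum_congr rfl fun q _ => ?_
    rw [div_pow, Real.sq_sqrt (Nat.cast_nonneg n)]
    ring
  have e2 : (n : ℂ) = (√(n : ℝ) : ℝ) * (√(n : ℝ) : ℝ) := by
    rw [← ofReal_mul, Real.mul_self_sqrt (Nat.cast_nonneg n), ofReal_natCast]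
  rw [e1, Hist.W, Hist.κ]
  generalize exp (-(((∑ q : Pair n, (B.hist h).X (a q.1.1) (a q.1.2) ^ 2 / 2) / n : ℝ) : ℂ)) = w
  rw [e2]
  simp only [Br.hist]
  push_cast
  ring

end Vale.Agent.P367L
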