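import Vale.Agent.P367L.Exp

namespace Vale.Agent.P367L

open Finset Complex MeasureTheory Vale.Agent.P146 Vale.Agent.P367
open scoped InnerProductSpace ComplexConjugate

variable {H K : Type} [NormedAddCommGroup H] [InnerProductSpace ℂ H]
  [SeminormedAddCommGroup K] [InnerProductSpace ℂ K] (M : P367S.Mdl H K)

/-- the action of a letter -/
noncomputable def wordL (z : ℕ → K) : Lt → K →ₗ[ℂ] K
  | .m A => M.mat A
  | .w j g => (M.cw ((g : ℂ) • M.io (z j))).toLinearEquiv.toLinearMap

/-- the action of a word -/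
noncomputable def wordW (z : ℕ → K) : List Lt → K →ₗ[ℂ] K
  | [] => LinearMap.id
  | y :: r => wordW z r ∘ₗ wordL M z y

/-- the index bound of a letter -/
def wordLt (N : ℕ) : Lt → Prop
  | .m _ => True
  | .w j _ => j < N

/-- the field vector of real coefficients -/
noncomputable def wordV (z : ℕ → K) (N : ℕ) (h : ℕ → ℝ) : H :=
  ∑ i ∈ range N, (h i : ℂ) • M.io (z i)

theorem word_append (z : ℕ → K) (r s : List Lt) (x : K) :
    wordW M z (r ++ s) x = wordW M z s (wordW M z r x) := by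
  induction r generalizing x with
  | nil => rfl
  | cons y r ih => exact ih _

theorem word_ext {E : Type} [AddCommGroup E] [Module ℂ E] {S T : K →ₗ[ℂ] E}
    (h : ∀ a k, S (M.co a k) = T (M.co a k)) : S = T :=
  LinearMap.ext_on_range M.span_co fun p => h p.1 p.2

theorem word_Bf (z : ℕ → K) (N : ℕ) (h k : ℕ → ℝ) :
    Bf N (fun j k => ⟪z j, z k⟫_ℂ) h k = ⟪wordV M z N h, wordV M z N k⟫_ℂ := by
  unfold Bf wordV
  rw [sum_inner]
  refine Finset.sum_congr rfl fun i _ => ?_
  rw [inner_sum]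
  refine Finset.sum_congr rfl fun j _ => ?_
  rw [inner_smul_left, inner_smul_right, M.io.inner_map_map, conj_ofReal]
  push_cast
  ring

theorem word_single (z : ℕ → K) {N j : ℕ} (hj : j < N) (c : ℝ) :
    wordV M z N (Pi.single j c) = (c : ℂ) • M.io (z j) := by
  unfold wordV
  rw [Finset.sum_eq_single j]
  · rw [Pi.single_eq_same]
  · intro b _ hb
    rw [Pi.single_eq_of_ne hb, ofReal_zero, zero_smul]
  · intro h
    exact (h (Finset.mem_range.2 hj)).elim

theorem word_sub (z : ℕ → K) (N : ℕ) (h k : ℕ → ℝ) :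
    wordV M z N (h - k) = wordV M z N h - wordV M z N k := by
  unfold wordV
  rw [← Finset.sum_sub_distrib]
  refine Finset.sum_congr rfl fun i _ => ?_
  rw [Pi.sub_apply, ofReal_sub, sub_smul]

theorem word_vac : M.vac = ∑ a, ((1 / √2 : ℝ) : ℂ) • M.co a 0 := by
  rw [Fintype.sum_bool, P367S.Mdl.vac, smul_add, one_div]

theorem word_vac_co (a : Bool) (k : H) :
    ⟪M.vac, M.co a k⟫_ℂ = ((1 / √2 : ℝ) : ℂ) * exp (-⟪k, k⟫_ℂ / 2) := by
  have h1 : ⟪(0 : H), k⟫_ℂ - ((‖(0 : H)‖ ^ 2 / 2 : ℝ) : ℂ) - ((‖k‖ ^ 2 / 2 : ℝ) : ℂ) =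
      -⟪k, k⟫_ℂ / 2 := by
    rw [inner_zero_left, norm_zero, inner_self_eq_norm_sq_to_K]
    push_cast
    simp only [coe_algebraMap]
    ring
  rw [word_vac, sum_inner]
  simp only [inner_smul_left, M.inner_co, h1, conj_ofReal, mul_ite, mul_zero, Finset.sum_ite_eq',
    Finset.mem_univ, if_true]

theorem word_ampl (z : ℕ → K) (N : ℕ) (r : List Lt) (hr : ∀ y ∈ r, wordLt N y) (a : Bool)
    (h : ℕ → ℝ) : ampl N (fun j k => ⟪z j, z k⟫_ℂ) r a h =
      ⟪M.vac, wordW M z r (M.co a (wordV M z N h))⟫_ℂ := by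
  induction r generalizing a h with
  | nil => rw [ampl, word_Bf M, ← word_vac_co M a]; rfl
  | cons y r ih =>
    have ih' := ih fun y hy => hr y (List.mem_cons_of_mem _ hy)
    cases y with
    | m A =>
      rw [ampl, wordW, LinearMap.comp_apply, wordL, M.mat_co, map_sum, inner_sum]
      refine Finset.sum_congr rfl fun b _ => ?_
      rw [map_smul, inner_smul_right, ih']
    | w j g =>
      have hj : j < N := hr _ List.mem_cons_self
      rw [ampl, wordW, LinearMap.comp_apply, wordL]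
      change _ = ⟪M.vac, wordW M z r (M.cw ((g : ℂ) • M.io (z j)) (M.co a (wordV M z N h)))⟫_ℂ
      rw [M.cw_co, map_smul, inner_smul_right, ih', word_sub, word_single M z hj, word_Bf M,
        word_single M z hj, ofReal_one, one_smul, inner_smul_left, conj_ofReal, im_ofReal_mul,
        smul_smul, ofReal_mul (spin a) g, mul_assoc (spin a)]
      rfl

theorem word_vamp (z : ℕ → K) (N : ℕ) (r : List Lt) (hr : ∀ y ∈ r, wordLt N y) :
    vamp N (fun j k => ⟪z j, z k⟫_ℂ) r = ⟪M.vac, wordW M z r M.vac⟫_ℂ := by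
  have h0 : wordV M z N 0 = 0 := by simp [wordV]
  conv_rhs => arg 3; rw [word_vac]
  rw [vamp, map_sum, inner_sum]
  refine Finset.sum_congr rfl fun a _ => ?_
  rw [word_ampl M z N r hr, h0, map_smul, inner_smul_right]

theorem word_cw (f : H) (x : K) : M.cw (-f) (M.cw f x) = x := by
  have h1 : (M.cw (-f)).toLinearEquiv.toLinearMap ∘ₗ (M.cw f).toLinearEquiv.toLinearMap =
      LinearMap.id := by
    refine word_ext M fun a k => ?_
    change M.cw (-f) (M.cw f (M.co a k)) = M.co a k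
    have h2 : (⟪f, f⟫_ℂ).im = 0 := inner_self_im (𝕜 := ℂ) f
    rw [M.cw_co, map_smul, M.cw_co, smul_smul, ← exp_add, smul_neg, sub_neg_eq_add, sub_add_cancel,
      inner_neg_left, inner_sub_right, inner_smul_right, neg_im, sub_im, im_ofReal_mul, h2]
    simp
  exact LinearMap.congr_fun h1 x

theorem word_mat {A : M2} (hA : Uni A) (x : K) : M.mat A.conjTranspose (M.mat A x) = x := by
  have h1 : M.mat A.conjTranspose ∘ₗ M.mat A = LinearMap.id := by
    refine word_ext M fun a k => ?_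
    have h2 : A.conjTranspose * A = 1 := Matrix.mem_unitaryGroup_iff'.1 hA
    rw [LinearMap.comp_apply, M.mat_co, map_sum]
    simp only [map_smul, M.mat_co, Finset.smul_sum, smul_smul]
    rw [Finset.sum_comm]
    have h3 : ∀ c, ∑ b, (A b a * A.conjTranspose c b) • M.co c k = (1 : M2) c a • M.co c k := by
      intro c
      rw [← Finset.sum_smul, ← h2, Matrix.mul_apply]
      simp only [mul_comm]
    simp only [h3, Matrix.one_apply, ite_smul, one_smul, zero_smul, Finset.sum_ite_eq',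
      Finset.mem_univ, if_true, LinearMap.id_apply]
  exact LinearMap.congr_fun h1 x

theorem word_Z_co (a : Bool) (k : H) :
    M.mat P367S.Zm (M.co a k) = (P367S.sg a : ℂ) • M.co a k := by
  rw [M.mat_co, Finset.sum_eq_single a]
  · rw [P367S.Zm, Matrix.diagonal_apply_eq]
  · intro b _ hb
    rw [P367S.Zm, Matrix.diagonal_apply_ne _ hb, zero_smul]
  · simp

theorem word_Z (x y : K) : ⟪M.mat P367S.Zm x, y⟫_ℂ = ⟪x, M.mat P367S.Zm y⟫_ℂ := by
  have h1 : ∀ a k (y : K), ⟪M.mat P367S.Zm (M.co a k), y⟫_ℂ = ⟪M.co a k, M.mat P367S.Zm y⟫_ℂ := by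
    intro a k y
    have h2 : innerₛₗ ℂ (M.mat P367S.Zm (M.co a k)) = innerₛₗ ℂ (M.co a k) ∘ₗ M.mat P367S.Zm := by
      refine word_ext M fun b l => ?_
      rw [LinearMap.comp_apply, innerₛₗ_apply_apply, innerₛₗ_apply_apply, word_Z_co, word_Z_co,
        inner_smul_left, inner_smul_right, conj_ofReal, M.inner_co]
      split_ifs with h
      · rw [h]
      · simp
    exact LinearMap.congr_fun h2 y
  have h3 : innerₛₗ ℂ y ∘ₗ M.mat P367S.Zm = innerₛₗ ℂ (M.mat P367S.Zm y) := by
    refine word_ext M fun a k => ?_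
    rw [LinearMap.comp_apply, innerₛₗ_apply_apply, innerₛₗ_apply_apply, ← inner_conj_symm, h1,
      inner_conj_symm]
  have h4 : ⟪y, M.mat P367S.Zm x⟫_ℂ = ⟪M.mat P367S.Zm y, x⟫_ℂ := LinearMap.congr_fun h3 x
  rw [← inner_conj_symm, h4, inner_conj_symm]

theorem word_fw (γ β : ℕ → ℝ) (j : ℕ) (x : K) :
    wordW M (fun j => M.zed (UU M γ β j)) (fw γ (fun j => RX (β j)) j) x = UU M γ β j x := by
  induction j with
  | zero => rfl
  | succ j ih =>
    rw [fw, word_append, ih, UU, lay, LinearIsometryEquiv.trans_apply, M.bx_eq, bM_eq]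
    rfl

theorem word_back (γ β : ℕ → ℝ) (j : ℕ) (x : K) :
    wordW M (fun j => M.zed (UU M γ β j)) ((fw γ (fun j => RX (β j)) j).map Lt.inv).reverse
      (UU M γ β j x) = x := by
  induction j with
  | zero => rfl
  | succ j ih =>
    rw [fw, List.map_append, List.reverse_append, word_append, UU, lay,
      LinearIsometryEquiv.trans_apply, M.bx_eq, bM_eq, LinearIsometryEquiv.trans_apply]
    refine Eq.trans (congrArg _ ?_) ih
    change M.cw (((-γ j : ℝ) : ℂ) • M.io (M.zed (UU M γ β j))) (M.mat (RX (β j)).conjTranspose _) = _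
    rw [word_mat M (uni_RX _), ofReal_neg, neg_smul, word_cw]

theorem word_zw (γ β : ℕ → ℝ) (j : ℕ) (x : K) :
    wordW M (fun j => M.zed (UU M γ β j)) (zw γ (fun j => RX (β j)) j) x =
      (UU M γ β j).symm (M.mat P367S.Zm (UU M γ β j x)) := by
  rw [zw, word_append, word_fw, wordW, LinearMap.comp_apply,
    ← word_back M γ β j ((UU M γ β j).symm _), LinearIsometryEquiv.apply_symm_apply]
  rfl

theorem word_fw_lt (γ : ℕ → ℝ) (A : ℕ → M2) {N : ℕ} (j : ℕ) (hj : j ≤ N) :
    ∀ y ∈ fw γ A j, wordLt N y := by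
  induction j with
  | zero => simp [fw]
  | succ j ih =>
    intro y hy
    simp only [fw, List.mem_append, List.mem_cons, List.not_mem_nil, or_false] at hy
    rcases hy with hy | rfl | rfl
    · exact ih (by omega) y hy
    · exact hj
    · trivial

theorem word_zw_lt (γ : ℕ → ℝ) (A : ℕ → M2) {N : ℕ} (j : ℕ) (hj : j ≤ N) :
    ∀ y ∈ zw γ A j, wordLt N y := by
  intro y hy
  simp only [zw, List.mem_append, List.mem_cons, List.mem_reverse, List.mem_map] at hy
  rcases hy with hy | rfl | ⟨y, hy, rfl⟩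
  · exact word_fw_lt γ A j hj y hy
  · trivial
  · have h1 := word_fw_lt γ A j hj y hy
    cases y <;> exact h1

/-- Let `z j = M.zed (UU M γ β j)`, `G j k = ⟪z j, z k⟫`.  Define the action of a letter on `K`
(`Lt.m A ↦ M.mat A`, `Lt.w j g ↦ M.cw (g • M.io (z j))`) and of a word (head first).
(1) For a word `r` whose letters `w j g` all have `j < N`:
`ampl N G r a h = ⟪M.vac, act r (M.co a (∑ i ∈ range N, h i • M.io (z i)))⟫` (induction on `r`;
`Bf N G h k` is the inner product of the two sums; `P367S.sg = spin` by `rfl`).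
(2) `act (fw γ A j) = UU M γ β j` (`bx_eq`, `bM_eq`), and the reversed inverse word acts as
`(UU M γ β j).symm` (`M.cw (-f)` inverts `M.cw f` and `M.mat (RX t)ᴴ` inverts `M.mat (RX t)`: check
on the vectors `co` and use `span_co`, `uni_RX`).
(3) `⟪M.mat Zm x, y⟫ = ⟪x, M.mat Zm y⟫` (span induction), so
`⟪z j, z k⟫ = ⟪vac, U_j⁻¹ Z U_j (z k)⟫ = vamp ..`. -/
theorem isGram (γ β : ℕ → ℝ) : IsGram (Measure.dirac ()) γ (fun j _ => RX (β j))
    fun j k => ⟪M.zed (UU M γ β j), M.zed (UU M γ β k)⟫_ℂ := by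
  intro j k
  rw [integral_dirac, word_vamp M, word_append, word_zw, word_zw,
    ← LinearIsometryEquiv.inner_map_eq_flip, ← word_Z]
  · change ⟪(UU M γ β j).symm _, _⟫_ℂ = _
    rw [← (UU M γ β j).inner_map_map, LinearIsometryEquiv.apply_symm_apply]
    rfl
  · intro y hy
    rcases List.mem_append.1 hy with hy | hy
    · exact word_zw_lt _ _ k (le_max_right _ _) y hy
    · exact word_zw_lt _ _ j (le_max_left _ _) y hy

end Vale.Agent.P367L
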