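import Vale.Agent.P367L.Lim
import Vale.Agent.P367L.Rep
import Vale.Agent.P367L.Word
import Vale.Agent.P367L.Brid
import Vale.Agent.P367S.MEx

/-! Part L: the limit formula. -/

namespace Vale.Agent.P367L

open Finset Complex Filter Topology MeasureTheory Vale.Agent.P146 Vale.Agent.P367
open scoped InnerProductSpace

variable {H K : Type} [NormedAddCommGroup H] [InnerProductSpace ℂ H]
  [SeminormedAddCommGroup K] [InnerProductSpace ℂ K] (M : P367S.Mdl H K)

theorem exists_br (γ β : ℕ → ℝ) (p : ℕ) : ∃ (Q : Type) (_ : Fintype Q) (B : Br Q) (h : Q × Q → ℂ)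
    (m : Q → ℂ) (ζ : Q → K), (∀ n J, Rep n J (psi n J γ β p) B) ∧ (B.hist h).Good ∧
      Brid M (UU M γ β p) (fun x => ∑ t ∈ range p, (γ t * ⟪x, M.zed (UU M γ β t)⟫_ℂ) •
        M.zed (UU M γ β t)) B h m ζ := by
  induction p with
  | zero => exact ⟨Bool, inferInstance, Br.zero, _, _, _, rep_zero, Br.good_zero, brid_zero M⟩
  | succ p ih =>
    obtain ⟨Q, _, B, h, m, ζ, h1, h2, h3⟩ := ih
    obtain ⟨m', ζ', h4⟩ := h3.step (γ p) (β p)
    refine ⟨Bool × Q, inferInstance, B.step (γ p) (RX (β p)), B.hstep h (γ p), m', ζ',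
      fun n J => rep_step (h1 n J) _ _, Br.good_step h2 _ (uni_RX _), ?_⟩
    simp only [sum_range_succ]
    exact h4

theorem limit (γ β : ℕ → ℝ) (p : ℕ) :
    Tendsto (fun n => P367.val n (fun t : Fin p => γ t) (fun t : Fin p => β t)) atTop
      (𝓝 (val3 γ (fun j k => ⟪M.zed (UU M γ β j), M.zed (UU M γ β k)⟫_ℂ) p)) := by
  obtain ⟨Q, _, B, h, m, ζ, h1, h2, h3⟩ := exists_br M γ β p
  have e : val3 γ (fun j k => ⟪M.zed (UU M γ β j), M.zed (UU M γ β k)⟫_ℂ) p = _ :=
    Eq.trans ?_ h3.val.symm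
  · rw [e]
    refine ((continuous_re.tendsto _).comp (h2.lim (B.hist h).κ)).congr fun n => ?_
    have e2 := rep_energy (h1 n) h
    simp only [P367.val, qaoa_eq, energy_eq, Function.comp_apply, div_natCast_re _ n] at e2 ⊢
    rw [← e2]
    rfl
  · simp only [val3, inner_sum, inner_smul_right, im_sum, mul_assoc, im_ofReal_mul, sq]

end Vale.Agent.P367L

namespace Vale.Agent.P367

theorem partL : PartL := fun γ β => by
  obtain ⟨K, _, _, -, ⟨M⟩⟩ := P367S.exists_mdl
  exact ⟨_, P367L.isGram M γ β, P367L.limit M γ β⟩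

end Vale.Agent.P367
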